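import Vale.Agent.P181.H629.StructK

/-!
P181, power map, one-scale structure theorem: the comparison and the theorem.
-/

set_option autoImplicit false

namespace Vale.Agent.P181.SK

open Finset Vale.Agent.P181.T3

variable {a : ℕ}

section boxes

variable {N Q : ℕ} {B : Type} [Fintype B] [DecidableEq B] (t : B → Fin N)
  (pc : B → Fin a × Fin Q)

/-- Occupation of a column by a piece. -/
def uu (c : Fin N) (p : Fin a × Fin Q) : ℤ := if ∃ x, t x = c ∧ pc x = p then 1 else 0

/-- Number of columns shared by two pieces. -/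
def OO (p p' : Fin a × Fin Q) : ℤ := ∑ c, uu t pc c p * uu t pc c p'

lemma uu_nonneg (c : Fin N) (p : Fin a × Fin Q) : 0 ≤ uu t pc c p := by
  unfold uu
  split_ifs <;> norm_num

lemma OO_nonneg (p p' : Fin a × Fin Q) : 0 ≤ OO t pc p p' :=
  Finset.sum_nonneg (fun c _ => mul_nonneg (uu_nonneg t pc c p) (uu_nonneg t pc c p'))

lemma OO_card (p p' : Fin a × Fin Q) : OO t pc p p' =
    ((univ.filter (fun c => (∃ x, t x = c ∧ pc x = p) ∧ ∃ x, t x = c ∧ pc x = p')).card : ℤ) := by
  unfold OO uu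
  rw [Finset.card_filter]
  push_cast
  apply Finset.sum_congr rfl
  intro c _
  by_cases h1 : ∃ x, t x = c ∧ pc x = p
  · by_cases h2 : ∃ x, t x = c ∧ pc x = p'
    · rw [if_pos h1, if_pos h2, if_pos ⟨h1, h2⟩, one_mul]
    · rw [if_pos h1, if_neg h2, mul_zero, if_neg (fun h => h2 h.2)]
  · rw [if_neg h1, zero_mul, if_neg (fun h => h1 h.1)]

variable {t pc}

lemma OO_zero {g : Fin a × Fin Q → Fin a}
    (hg : ∀ x x', t x = t x' → x ≠ x' → g (pc x) ≠ g (pc x')) {p p' : Fin a × Fin Q}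
    (h : g p = g p') (hne : p ≠ p') : OO t pc p p' = 0 := by
  unfold OO
  apply Finset.sum_eq_zero
  intro c _
  unfold uu
  by_cases h1 : ∃ x, t x = c ∧ pc x = p
  · by_cases h2 : ∃ x, t x = c ∧ pc x = p'
    · obtain ⟨x, hx1, hx2⟩ := h1
      obtain ⟨x', hx1', hx2'⟩ := h2
      exfalso
      apply hg x x' (hx1.trans hx1'.symm)
      · intro h3
        apply hne
        rw [← hx2, ← hx2', h3]
      · rw [hx2, hx2', h]
    · rw [if_neg h2, mul_zero]
  · rw [if_neg h1, zero_mul]

lemma occ {g : Fin a × Fin Q → Fin a}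
    (hg : ∀ x x', t x = t x' → x ≠ x' → g (pc x) ≠ g (pc x')) (c : Fin N) (m : Fin a) :
    (if ∃ x, t x = c ∧ g (pc x) = m then (1 : ℤ) else 0) =
      ∑ p, if g p = m then uu t pc c p else 0 := by
  by_cases h : ∃ x, t x = c ∧ g (pc x) = m
  · rw [if_pos h]
    obtain ⟨x, hx1, hx2⟩ := h
    rw [Finset.sum_eq_single (pc x)]
    · rw [if_pos hx2, uu, if_pos ⟨x, hx1, rfl⟩]
    · intro p _ hp
      split_ifs with h1
      · rw [uu, if_neg]
        rintro ⟨x', hx1', hx2'⟩
        by_cases h3 : x = x'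
        · apply hp
          rw [← hx2', h3]
        · apply hg x x' (hx1.trans hx1'.symm) h3
          rw [hx2, hx2', h1]
      · rfl
    · intro h1
      exact absurd (Finset.mem_univ _) h1
  · rw [if_neg h]
    symm
    apply Finset.sum_eq_zero
    intro p _
    split_ifs with h1
    · rw [uu, if_neg]
      rintro ⟨x', hx1', hx2'⟩
      exact h ⟨x', hx1', by rw [hx2', h1]⟩
    · rfl

lemma cc_eq_OO {g : Fin a × Fin Q → Fin a}
    (hg : ∀ x x', t x = t x' → x ≠ x' → g (pc x) ≠ g (pc x')) (m m' : Fin a) :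
    (cc t (fun x => g (pc x)) m m' : ℤ) =
      ∑ p, ∑ p', if g p = m ∧ g p' = m' then OO t pc p p' else 0 := by
  unfold cc
  rw [Finset.card_filter]
  push_cast
  have h1 : ∀ c, (if (∃ x, t x = c ∧ g (pc x) = m) ∧ ∃ x, t x = c ∧ g (pc x) = m' then
      (1 : ℤ) else 0) = ∑ p, ∑ p', (if g p = m ∧ g p' = m' then
        uu t pc c p * uu t pc c p' else 0) := by
    intro c
    have h2 : (if (∃ x, t x = c ∧ g (pc x) = m) ∧ ∃ x, t x = c ∧ g (pc x) = m' then
      (1 : ℤ) else 0) = (if ∃ x, t x = c ∧ g (pc x) = m then (1 : ℤ) else 0) *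
        (if ∃ x, t x = c ∧ g (pc x) = m' then (1 : ℤ) else 0) := by
      by_cases h1 : ∃ x, t x = c ∧ g (pc x) = m
      · by_cases h2 : ∃ x, t x = c ∧ g (pc x) = m'
        · rw [if_pos h1, if_pos h2, if_pos ⟨h1, h2⟩, one_mul]
        · rw [if_pos h1, if_neg h2, if_neg (fun h => h2 h.2), mul_zero]
      · rw [if_neg h1, if_neg (fun h => h1 h.1), zero_mul]
    rw [h2, occ hg, occ hg, Finset.sum_mul_sum]
    apply Finset.sum_congr rfl
    intro p _
    apply Finset.sum_congr rfl
    intro p' _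
    by_cases h3 : g p = m
    · by_cases h4 : g p' = m'
      · rw [if_pos h3, if_pos h4, if_pos ⟨h3, h4⟩]
      · rw [if_neg h4, mul_zero, if_neg (fun h => h4 h.2)]
    · rw [if_neg h3, zero_mul, if_neg (fun h => h3 h.1)]
  rw [Finset.sum_congr rfl (fun c _ => h1 c), Finset.sum_comm]
  apply Finset.sum_congr rfl
  intro p _
  rw [Finset.sum_comm]
  apply Finset.sum_congr rfl
  intro p' _
  by_cases h3 : g p = m ∧ g p' = m'
  · rw [if_pos h3, OO]
    exact Finset.sum_congr rfl (fun c _ => if_pos h3)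
  · rw [if_neg h3]
    exact Finset.sum_eq_zero (fun c _ => if_neg h3)

/-- Columns shared by the pieces of two rows that go to the same part. -/
def GG (t : B → Fin N) (pc : B → Fin a × Fin Q) (y : Fin a × Fin Q → Fin a) (P : Fin a → Fin a)
    (i j : Fin a) : ℤ :=
  ∑ k, ∑ k', if P (y (i, k)) = P (y (j, k')) then OO t pc (i, k) (j, k') else 0

lemma cc_rows (hprop : ∀ x x', t x = t x' → x ≠ x' → (pc x).1 ≠ (pc x').1) (i j : Fin a) :
    (cc t (fun x => (pc x).1) i j : ℤ) = ∑ k, ∑ k', OO t pc (i, k) (j, k') := by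
  rw [cc_eq_OO (g := Prod.fst) hprop i j, Fintype.sum_prod_type, Finset.sum_eq_single i]
  · apply Finset.sum_congr rfl
    intro k _
    rw [Fintype.sum_prod_type, Finset.sum_eq_single j]
    · apply Finset.sum_congr rfl
      intro k' _
      rw [if_pos ⟨rfl, rfl⟩]
    · intro j' _ hj'
      apply Finset.sum_eq_zero
      intro k' _
      rw [if_neg (fun h => hj' h.2)]
    · intro h
      exact absurd (Finset.mem_univ _) h
  · intro i' _ hi'
    apply Finset.sum_eq_zero
    intro k _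
    apply Finset.sum_eq_zero
    intro p' _
    rw [if_neg (fun h => hi' h.1)]
  · intro h
    exact absurd (Finset.mem_univ _) h

/-- One pair of rows. -/
lemma GG_ge {y : Fin a × Fin Q → Fin a} {P : Fin a → Fin a} {D : ℕ}
    (hprop : ∀ x x', t x = t x' → x ≠ x' → (pc x).1 ≠ (pc x').1) {i j : Fin a}
    (hlab : ∀ k k', cc t (fun x => (pc x).1) i j ≤ Q ^ 2 *
      (univ.filter (fun c => (∃ x, t x = c ∧ pc x = (i, k)) ∧
        ∃ x, t x = c ∧ pc x = (j, k'))).card + D) :
    MM y P i j * (cc t (fun x => (pc x).1) i j : ℤ) - D * BB y P i j ≤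
      (Q : ℤ) ^ 2 * GG t pc y P i j := by
  classical
  unfold BB
  split_ifs with h
  · have h1 : MM y P i j = (Q : ℤ) ^ 2 := by
      unfold MM
      rw [Finset.sum_congr rfl (fun k _ => Finset.sum_congr rfl (fun k' _ => if_pos (h k k')))]
      simp
      ring
    have h2 : GG t pc y P i j = (cc t (fun x => (pc x).1) i j : ℤ) := by
      rw [cc_rows hprop, GG]
      exact Finset.sum_congr rfl (fun k _ => Finset.sum_congr rfl (fun k' _ => if_pos (h k k')))
    rw [h1, h2]
    simp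
  · rw [MM, GG, Finset.mul_sum, Finset.sum_mul, Finset.mul_sum, ← Finset.sum_sub_distrib]
    apply Finset.sum_le_sum
    intro k _
    rw [Finset.mul_sum, Finset.sum_mul, Finset.mul_sum, ← Finset.sum_sub_distrib]
    apply Finset.sum_le_sum
    intro k' _
    have h1 := hlab k k'
    have h2 : (cc t (fun x => (pc x).1) i j : ℤ) ≤ (Q : ℤ) ^ 2 * OO t pc (i, k) (j, k') + D := by
      rw [OO_card]
      exact_mod_cast h1
    split_ifs
    · linarith
    · simp

/-- The comparison of the two fillings. -/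
theorem compare {y : Fin a × Fin Q → Fin a} {P : Fin a → Fin a} {s X D : ℕ}
    (hprop : ∀ x x', t x = t x' → x ≠ x' → (pc x).1 ≠ (pc x').1)
    (hlab : ∀ i j, i ≠ j → ∀ k k', cc t (fun x => (pc x).1) i j ≤ Q ^ 2 *
      (univ.filter (fun c => (∃ x, t x = c ∧ pc x = (i, k)) ∧
        ∃ x, t x = c ∧ pc x = (j, k'))).card + D)
    (hbal : ∀ m, (univ.filter (fun p => y p = m)).card = Q)
    (hy : ∀ x x', t x = t x' → x ≠ x' → y (pc x) ≠ y (pc x')) (hP : P ∈ Adm a s) :
    LL y P * ((X : ℤ) - 2 * s * (s * (s + 1)) * Q * D) ≤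
      (Q : ℤ) ^ 2 * FK s X (cc t (fun x => y (pc x))) P -
        ∑ i, ∑ j, if i ≠ j then MM y P i j *
          (((s * (s + 1) * cc t (fun x => (pc x).1) i j : ℕ) : ℤ) - X) else 0 := by
  classical
  set c := cc t (fun x => (pc x).1) with hc
  set c' := cc t (fun x => y (pc x)) with hc'
  -- the cost of the new partition
  have h1 : FK s X c' P = (s * (s + 1) : ℤ) *
      (∑ m, ∑ m', if m ≠ m' ∧ P m = P m' then (c' m m' : ℤ) else 0) -
      X * (∑ m, ∑ m', if m ≠ m' ∧ P m = P m' then (1 : ℤ) else 0) := by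
    unfold FK
    rw [Finset.mul_sum, Finset.mul_sum, ← Finset.sum_sub_distrib]
    apply Finset.sum_congr rfl
    intro m _
    rw [Finset.mul_sum, Finset.mul_sum, ← Finset.sum_sub_distrib]
    apply Finset.sum_congr rfl
    intro m' _
    split_ifs
    · push_cast
      ring
    · ring
  -- the average of the old one
  have h2 : (∑ i, ∑ j, if i ≠ j then MM y P i j *
      (((s * (s + 1) * c i j : ℕ) : ℤ) - X) else 0) = (s * (s + 1) : ℤ) *
      (∑ i, ∑ j, if i ≠ j then MM y P i j * (c i j : ℤ) else 0) -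
      X * (∑ i, ∑ j, if i ≠ j then MM y P i j else 0) := by
    rw [Finset.mul_sum, Finset.mul_sum, ← Finset.sum_sub_distrib]
    apply Finset.sum_congr rfl
    intro m _
    rw [Finset.mul_sum, Finset.mul_sum, ← Finset.sum_sub_distrib]
    apply Finset.sum_congr rfl
    intro m' _
    split_ifs
    · push_cast
      ring
    · ring
  -- overlaps of the new rows
  have h3 : (∑ i, ∑ j, if i ≠ j then GG t pc y P i j else 0) ≤
      ∑ m, ∑ m', if m ≠ m' ∧ P m = P m' then (c' m m' : ℤ) else 0 := by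
    have h4 : (∑ m, ∑ m', if m ≠ m' ∧ P m = P m' then (c' m m' : ℤ) else 0) =
        ∑ pp : (Fin a × Fin Q) × (Fin a × Fin Q),
          if y pp.1 ≠ y pp.2 ∧ P (y pp.1) = P (y pp.2) then OO t pc pp.1 pp.2 else 0 := by
      rw [← Fintype.sum_prod_type' (fun m m' => if m ≠ m' ∧ P m = P m' then
        (c' m m' : ℤ) else 0)]
      have h5 : ∀ mm : Fin a × Fin a, (if mm.1 ≠ mm.2 ∧ P mm.1 = P mm.2 then
          (c' mm.1 mm.2 : ℤ) else 0) = ∑ pp : (Fin a × Fin Q) × (Fin a × Fin Q),
          if mm.1 ≠ mm.2 ∧ P mm.1 = P mm.2 then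
            (if y pp.1 = mm.1 ∧ y pp.2 = mm.2 then OO t pc pp.1 pp.2 else 0) else 0 := by
        intro mm
        by_cases h6 : mm.1 ≠ mm.2 ∧ P mm.1 = P mm.2
        · rw [if_pos h6, Finset.sum_congr rfl (fun pp _ => if_pos h6), hc', cc_eq_OO hy,
            ← Fintype.sum_prod_type' (fun p p' => if y p = mm.1 ∧ y p' = mm.2 then
              OO t pc p p' else 0)]
        · rw [if_neg h6, Finset.sum_congr rfl (fun pp _ => if_neg h6), Finset.sum_const_zero]
      rw [Finset.sum_congr rfl (fun mm _ => h5 mm), Finset.sum_comm]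
      apply Finset.sum_congr rfl
      intro pp _
      rw [Finset.sum_eq_single (y pp.1, y pp.2)]
      · by_cases h6 : y pp.1 ≠ y pp.2 ∧ P (y pp.1) = P (y pp.2)
        · rw [if_pos h6, if_pos h6, if_pos ⟨rfl, rfl⟩]
        · rw [if_neg h6, if_neg h6]
      · intro mm _ hmm
        split_ifs with h6 h7
        · exfalso
          apply hmm
          rw [h7.1, h7.2]
        · rfl
        · rfl
      · intro h6
        exact absurd (Finset.mem_univ _) h6
    have h5 : (∑ i, ∑ j, if i ≠ j then GG t pc y P i j else 0) =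
        ∑ pp : (Fin a × Fin Q) × (Fin a × Fin Q),
          if pp.1.1 ≠ pp.2.1 ∧ P (y pp.1) = P (y pp.2) then OO t pc pp.1 pp.2 else 0 := by
      rw [Fintype.sum_prod_type, Fintype.sum_prod_type]
      apply Finset.sum_congr rfl
      intro i _
      rw [Finset.sum_congr rfl (fun k _ => Fintype.sum_prod_type _), Finset.sum_comm]
      apply Finset.sum_congr rfl
      intro j _
      by_cases hij : i = j
      · rw [if_neg (fun h => h hij)]
        symm
        apply Finset.sum_eq_zero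
        intro k _
        apply Finset.sum_eq_zero
        intro k' _
        rw [if_neg (fun h => h.1 hij)]
      · rw [if_pos hij, GG]
        apply Finset.sum_congr rfl
        intro k _
        apply Finset.sum_congr rfl
        intro k' _
        by_cases h6 : P (y (i, k)) = P (y (j, k'))
        · rw [if_pos h6, if_pos ⟨hij, h6⟩]
        · rw [if_neg h6, if_neg (fun h => h6 h.2)]
    rw [h4, h5]
    apply Finset.sum_le_sum
    intro pp _
    by_cases h6 : pp.1.1 ≠ pp.2.1 ∧ P (y pp.1) = P (y pp.2)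
    · rw [if_pos h6]
      by_cases h7 : y pp.1 = y pp.2
      · rw [if_neg (fun h => h.1 h7), OO_zero hy h7 (fun h => h6.1 (by rw [h]))]
      · rw [if_pos ⟨h7, h6.2⟩]
    · rw [if_neg h6]
      split_ifs
      · exact OO_nonneg t pc _ _
      · exact le_refl _
  -- pair by pair
  have h4 : (∑ i, ∑ j, if i ≠ j then MM y P i j * (c i j : ℤ) else 0) -
      D * (∑ i, ∑ j, if i ≠ j then BB y P i j else 0) ≤
      (Q : ℤ) ^ 2 * (∑ i, ∑ j, if i ≠ j then GG t pc y P i j else 0) := by
    rw [Finset.mul_sum, Finset.mul_sum, ← Finset.sum_sub_distrib]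
    apply Finset.sum_le_sum
    intro i _
    rw [Finset.mul_sum, Finset.mul_sum, ← Finset.sum_sub_distrib]
    apply Finset.sum_le_sum
    intro j _
    split_ifs with hij
    · exact GG_ge hprop (hlab i j hij)
    · simp
  have h5 := sum_BB_le hP hbal
  have h6 := pairs_count (P := P) hbal
  have h7 : (0 : ℤ) ≤ s * (s + 1) := by positivity
  have h8 : (0 : ℤ) ≤ D := by positivity
  have h9 : (0 : ℤ) ≤ (Q : ℤ) ^ 2 := by positivity
  have h10 := mul_le_mul_of_nonneg_left h3 h9
  have h11 := mul_le_mul_of_nonneg_left h5 h8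
  set A := ∑ m, ∑ m', if m ≠ m' ∧ P m = P m' then (c' m m' : ℤ) else 0
  set cnt := ∑ m, ∑ m', if m ≠ m' ∧ P m = P m' then (1 : ℤ) else 0
  set MC := ∑ i, ∑ j, if i ≠ j then MM y P i j * (c i j : ℤ) else 0
  set MS := ∑ i, ∑ j, if i ≠ j then MM y P i j else 0
  set BS := ∑ i, ∑ j, if i ≠ j then BB y P i j else 0
  set GS := ∑ i, ∑ j, if i ≠ j then GG t pc y P i j else 0
  rw [h1, h2]
  have h12 : MC - D * (2 * Q * s * LL y P) ≤ (Q : ℤ) ^ 2 * A := by linarith
  have h13 := mul_le_mul_of_nonneg_left h12 h7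
  have h14 : (X : ℤ) * (MS - (Q : ℤ) ^ 2 * cnt) = X * LL y P := by rw [h6]
  nlinarith

end boxes

/-- A permutation with given fibres. -/
lemma exists_perm {P P' : Fin a → Fin a}
    (h : ∀ d, (univ.filter (fun m => P' m = d)).card = (univ.filter (fun i => P i = d)).card) :
    ∃ τ : Equiv.Perm (Fin a), ∀ m, P (τ m) = P' m := by
  classical
  have hE : ∀ d, Nonempty ({m // P' m = d} ≃ {i // P i = d}) := by
    intro d
    refine ⟨Fintype.equivOfCardEq ?_⟩
    rw [Fintype.card_subtype, Fintype.card_subtype]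
    exact h d
  let E : ∀ d, {m // P' m = d} ≃ {i // P i = d} := fun d => (hE d).some
  refine ⟨((Equiv.sigmaFiberEquiv P').symm.trans (Equiv.sigmaCongrRight E)).trans
    (Equiv.sigmaFiberEquiv P), ?_⟩
  intro m
  have h1 : ((((Equiv.sigmaFiberEquiv P').symm.trans (Equiv.sigmaCongrRight E)).trans
    (Equiv.sigmaFiberEquiv P)) m : Fin a) = (E (P' m) ⟨m, rfl⟩ : Fin a) := rfl
  rw [h1]
  exact (E (P' m) ⟨m, rfl⟩).2

/-- STRUCTURE THEOREM, one scale. -/
theorem structK (a N Q s D X : ℕ) (B : Type) [Fintype B] [DecidableEq B]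
    (t : B → Fin N) (pc : B → Fin a × Fin Q)
    (hprop : ∀ x x', t x = t x' → x ≠ x' → (pc x).1 ≠ (pc x').1)
    (hQ : 1 ≤ Q) (hs : 1 ≤ s)
    (hlab : ∀ i j, i ≠ j → ∀ k k', cc t (fun x => (pc x).1) i j ≤ Q ^ 2 *
      (univ.filter (fun c => (∃ x, t x = c ∧ pc x = (i, k)) ∧
        ∃ x, t x = c ∧ pc x = (j, k'))).card + D)
    (hX : 2 * s * (s * (s + 1)) * Q * D < X)
    (hgam : ∀ S : Finset (Fin a), S.card = s + 1 →
      2 * X ≤ ∑ p ∈ S.offDiag, cc t (fun x => (pc x).1) p.1 p.2)
    (y : Fin a × Fin Q → Fin a) (hbal : ∀ m, (univ.filter (fun p => y p = m)).card = Q)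
    (hy : ∀ x x', t x = t x' → x ≠ x' → y (pc x) ≠ y (pc x'))
    (hmin : wtK s X (cc t (fun x => (pc x).1)) ≤ wtK s X (cc t (fun x => y (pc x)))) :
    ∃ τ : Equiv.Perm (Fin a), ∀ i κ,
      partK s X (cc t (fun x => (pc x).1)) (τ (y (i, κ))) =
        partK s X (cc t (fun x => (pc x).1)) i := by
  classical
  set c := cc t (fun x => (pc x).1) with hc
  set c' := cc t (fun x => y (pc x)) with hc'
  obtain ⟨hmin1, hmin2⟩ := wtK_lex hmin
  have hXD : (0 : ℤ) < (X : ℤ) - 2 * s * (s * (s + 1)) * Q * D := by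
    have : ((2 * s * (s * (s + 1)) * Q * D : ℕ) : ℤ) < X := by exact_mod_cast hX
    push_cast at this
    linarith
  have hQ2 : (0 : ℤ) < (Q : ℤ) ^ 2 := by positivity
  -- every best partition of the new filling is preserved
  have hpres : ∀ P ∈ optK s X c', LL y P = 0 ∧ muK s X c' = muK s X c := by
    intro P hP
    obtain ⟨hP1, hP2⟩ := mem_optK.1 hP
    have h1 := compare (X := X) hprop hlab hbal hy hP1
    obtain ⟨κ, h2⟩ := exists_kappa (s := s) (X := X) hQ c y P
    obtain ⟨P', hP', h3⟩ := exists_split hs hgam (fun i => P (y (i, κ i)))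
    have h4 := muK_le (X := X) (c := c) hP'
    have h5 : -(muK s X c : ℤ) ≤ FK s X c (fun i => P (y (i, κ i))) := h4.trans h3
    have h6 : (muK s X c : ℤ) ≤ muK s X c' := by exact_mod_cast hmin1
    have h7 : (Q : ℤ) ^ 2 * -(muK s X c : ℤ) ≤ (Q : ℤ) ^ 2 *
        FK s X c (fun i => P (y (i, κ i))) := mul_le_mul_of_nonneg_left h5 hQ2.le
    rw [← hc', hP2] at h1
    have h8 : LL y P * ((X : ℤ) - 2 * s * (s * (s + 1)) * Q * D) ≤
        (Q : ℤ) ^ 2 * ((muK s X c : ℤ) - muK s X c') := by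
      nlinarith
    have h9 : (0 : ℤ) ≤ LL y P := LL_nonneg
    have h10 : (0 : ℤ) ≤ LL y P * ((X : ℤ) - 2 * s * (s * (s + 1)) * Q * D) :=
      mul_nonneg h9 hXD.le
    have h11 : (muK s X c' : ℤ) ≤ muK s X c := by
      by_contra h12
      push Not at h12
      have h13 : (Q : ℤ) ^ 2 * ((muK s X c : ℤ) - muK s X c') < 0 :=
        mul_neg_of_pos_of_neg hQ2 (by linarith)
      linarith
    have h12 : (muK s X c' : ℤ) = muK s X c := le_antisymm h11 h6
    constructor
    · rw [h12, sub_self, mul_zero] at h8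
      have h13 := le_antisymm h8 h10
      rcases mul_eq_zero.1 h13 with h14 | h14
      · exact h14
      · exact absurd h14 hXD.ne'
    · exact_mod_cast h12
  -- the induced map of best partitions
  have hQ0 : 0 < Q := hQ
  let k0 : Fin Q := ⟨0, hQ0⟩
  let Φ : (Fin a → Fin a) → (Fin a → Fin a) := fun P i => P (y (i, k0))
  have hΦ1 : ∀ P ∈ optK s X c', ∀ i k, P (y (i, k)) = Φ P i := fun P hP i k =>
    LL_zero (hpres P hP).1 i k k0
  have hfib : ∀ P ∈ optK s X c', ∀ d, (univ.filter (fun m => P m = d)).card =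
      (univ.filter (fun i => Φ P i = d)).card := by
    intro P hP d
    have h1 := sum_nn_row (P := P) hbal d
    have h2 : ∀ i, nn y P i d = Q * (if Φ P i = d then 1 else 0) := by
      intro i
      unfold nn
      rw [Finset.sum_congr rfl (fun k _ => by rw [hΦ1 P hP i k])]
      rw [Finset.sum_const, Finset.card_univ, Fintype.card_fin, nsmul_eq_mul]
    rw [Finset.sum_congr rfl (fun i _ => h2 i), ← Finset.mul_sum, RR_card] at h1
    have h3 : (∑ i, if Φ P i = d then (1 : ℤ) else 0) =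
        ((univ.filter (fun i => Φ P i = d)).card : ℤ) := by
      rw [Finset.card_filter]
      push_cast
      rfl
    rw [h3] at h1
    have h4 : (Q : ℤ) ≠ 0 := by positivity
    have h5 := mul_left_cancel₀ h4 h1
    exact_mod_cast h5.symm
  have hΦmem : ∀ P ∈ optK s X c', Φ P ∈ optK s X c := by
    intro P hP
    obtain ⟨hP1, hP2⟩ := mem_optK.1 hP
    obtain ⟨hL, hmu⟩ := hpres P hP
    have hA : Φ P ∈ Adm a s := by
      rw [mem_Adm]
      intro d
      rw [← hfib P hP d]
      exact mem_Adm.1 hP1 d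
    refine mem_optK.2 ⟨hA, ?_⟩
    have h1 := compare (X := X) hprop hlab hbal hy hP1
    obtain ⟨κ, h2⟩ := exists_kappa (s := s) (X := X) hQ c y P
    have h3 : (fun i => P (y (i, κ i))) = Φ P := by
      funext i
      exact hΦ1 P hP i (κ i)
    rw [h3] at h2
    rw [hL, zero_mul, ← hc', hP2] at h1
    have h4 := muK_le (X := X) (c := c) hA
    have h5 : (Q : ℤ) ^ 2 * FK s X c (Φ P) ≤ (Q : ℤ) ^ 2 * -(muK s X c' : ℤ) := by linarith
    have h6 : FK s X c (Φ P) ≤ -(muK s X c' : ℤ) := le_of_mul_le_mul_left h5 hQ2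
    rw [hmu] at h6
    exact le_antisymm h6 h4
  have hysurj : ∀ m, ∃ p, y p = m := by
    intro m
    have h1 : 0 < (univ.filter (fun p => y p = m)).card := by
      rw [hbal]
      exact hQ0
    obtain ⟨p, hp⟩ := Finset.card_pos.1 h1
    exact ⟨p, (Finset.mem_filter.1 hp).2⟩
  have hΦinj : Set.InjOn Φ (optK s X c') := by
    intro P hP P' hP' h
    funext m
    obtain ⟨p, rfl⟩ := hysurj m
    have h1 := hΦ1 P hP p.1 p.2
    have h2 := hΦ1 P' hP' p.1 p.2
    rw [Prod.mk.eta] at h1 h2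
    rw [h1, h2, h]
  -- counting
  obtain ⟨P0, hP0, hP0'⟩ := exists_muK hs X c'
  have hmu : muK s X c' = muK s X c := (hpres P0 (mem_optK.2 ⟨hP0, hP0'⟩)).2
  have hcard := hmin2 hmu.le
  have himg : (optK s X c').image Φ = optK s X c := by
    apply Finset.eq_of_subset_of_card_le
    · intro R hR
      obtain ⟨P, hP, rfl⟩ := Finset.mem_image.1 hR
      exact hΦmem P hP
    · rw [Finset.card_image_of_injOn hΦinj]
      exact hcard
  have hpart := partK_mem hs X c
  rw [← himg] at hpart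
  obtain ⟨P, hP, hPeq⟩ := Finset.mem_image.1 hpart
  obtain ⟨τ, hτ⟩ := exists_perm (P := partK s X c) (P' := P) (by
    intro d
    rw [hfib P hP d, hPeq])
  refine ⟨τ, ?_⟩
  intro i κ
  rw [hτ, hΦ1 P hP i κ, hPeq]

end Vale.Agent.P181.SK
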