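import Vale.Agent.P181.LK.Spec

/-!
P181: removal of one special group (row R1 of `LK.Spec`).
-/

set_option autoImplicit false

namespace Vale.Agent.P181.LK.R1

open Finset

variable {B : Type} [Fintype B] [DecidableEq B]

/-- Admissible placements. -/
def PP {k : ℕ} (X Y : Finset B) (ψ : Fin k → B) : Prop :=
  Function.Injective ψ ∧ ∀ i, ψ i ∈ X ∪ Y

def cY {k : ℕ} (Y : Finset B) (ψ : Fin k → B) : ℕ := (univ.filter (fun i => ψ i ∈ Y)).card

lemma card_ways {m : ℕ} (X Y : Finset B) (hXY : Disjoint X Y) (hX : X.card = m)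
    (hY : m + 1 ≤ Y.card) (ψ : Fin m → B) (hψ : PP X Y ψ) (j : ℕ) (hj : 1 ≤ j) :
    (univ.filter (fun b : B => (b ∈ X ∪ Y ∧ ∀ i, ψ i ≠ b) ∧
      cY Y ψ + (if b ∈ Y then 1 else 0) = j)).card =
    (if cY Y ψ = j then j else 0) + (if cY Y ψ = j - 1 then Y.card - (j - 1) else 0) := by
  classical
  obtain ⟨hinj, hmem⟩ := hψ
  have hI : (univ.image ψ).card = m := by
    rw [Finset.card_image_of_injective _ hinj, Finset.card_univ, Fintype.card_fin]
  have hIY : (univ.image ψ ∩ Y).card = cY Y ψ := by
    rw [cY, ← Finset.card_image_of_injective (univ.filter (fun i => ψ i ∈ Y)) hinj]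
    congr 1
    ext b
    simp only [mem_inter, mem_image, mem_univ, true_and, mem_filter]
    constructor
    · rintro ⟨⟨i, rfl⟩, h⟩
      exact ⟨i, h, rfl⟩
    · rintro ⟨i, h, rfl⟩
      exact ⟨⟨i, rfl⟩, h⟩
  have hIX0 : (univ.image ψ ∩ X).card + (univ.image ψ ∩ Y).card = (univ.image ψ).card := by
    rw [← Finset.card_union_of_disjoint]
    · congr 1
      ext b
      simp only [mem_union, mem_inter, mem_image, mem_univ, true_and]
      constructor
      · rintro (⟨h, -⟩ | ⟨h, -⟩) <;> exact h
      · rintro ⟨i, rfl⟩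
        rcases Finset.mem_union.1 (hmem i) with h | h
        · exact Or.inl ⟨⟨i, rfl⟩, h⟩
        · exact Or.inr ⟨⟨i, rfl⟩, h⟩
    · rw [Finset.disjoint_left]
      intro b h1 h2
      exact (Finset.disjoint_left.1 hXY) (mem_inter.1 h1).2 (mem_inter.1 h2).2
  have hIX : (univ.image ψ ∩ X).card + cY Y ψ = m := by
    omega
  have hXI : (X \ univ.image ψ).card = cY Y ψ := by
    have := Finset.card_sdiff_add_card_inter X (univ.image ψ)
    rw [Finset.inter_comm] at this
    omega
  have hYI : (Y \ univ.image ψ).card = Y.card - cY Y ψ := by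
    have := Finset.card_sdiff_add_card_inter Y (univ.image ψ)
    rw [Finset.inter_comm] at this
    omega
  have hsplit : (univ.filter (fun b : B => (b ∈ X ∪ Y ∧ ∀ i, ψ i ≠ b) ∧
      cY Y ψ + (if b ∈ Y then 1 else 0) = j)) =
      (if cY Y ψ = j then X \ univ.image ψ else ∅) ∪
      (if cY Y ψ + 1 = j then Y \ univ.image ψ else ∅) := by
    ext b
    simp only [mem_filter, mem_univ, true_and, mem_union]
    have himg : (∀ i, ψ i ≠ b) ↔ b ∉ univ.image ψ := by
      simp
    rw [himg]
    by_cases hbX : b ∈ X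
    · have hbY : b ∉ Y := Finset.disjoint_left.1 hXY hbX
      simp only [hbX, hbY, true_or, if_false, add_zero, true_and]
      constructor
      · rintro ⟨h1, h2⟩
        left
        rw [if_pos h2]
        exact mem_sdiff.2 ⟨hbX, h1⟩
      · rintro (h | h)
        · split_ifs at h with h3
          · exact ⟨(mem_sdiff.1 h).2, h3⟩
          · exact absurd h (Finset.notMem_empty _)
        · split_ifs at h with h3
          · exact absurd (mem_sdiff.1 h).1 hbY
          · exact absurd h (Finset.notMem_empty _)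
    · by_cases hbY : b ∈ Y
      · simp only [hbX, hbY, or_true, if_true, true_and]
        constructor
        · rintro ⟨h1, h2⟩
          right
          rw [if_pos h2]
          exact mem_sdiff.2 ⟨hbY, h1⟩
        · rintro (h | h)
          · split_ifs at h with h3
            · exact absurd (mem_sdiff.1 h).1 hbX
            · exact absurd h (Finset.notMem_empty _)
          · split_ifs at h with h3
            · exact ⟨(mem_sdiff.1 h).2, h3⟩
            · exact absurd h (Finset.notMem_empty _)
      · simp only [hbX, hbY, or_false, false_and, false_iff, not_or]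
        constructor
        · intro h
          split_ifs at h with h3
          · exact hbX (mem_sdiff.1 h).1
          · exact absurd h (Finset.notMem_empty _)
        · intro h
          split_ifs at h with h3
          · exact hbY (mem_sdiff.1 h).1
          · exact absurd h (Finset.notMem_empty _)
  rw [hsplit]
  by_cases h1 : cY Y ψ = j
  · have h2 : ¬ (cY Y ψ + 1 = j) := by omega
    have h3 : ¬ (cY Y ψ = j - 1) := by omega
    rw [if_pos h1, if_neg h2, Finset.union_empty, hXI, if_pos h1, if_neg h3, add_zero, h1]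
  · by_cases h2 : cY Y ψ + 1 = j
    · have h3 : cY Y ψ = j - 1 := by omega
      rw [if_neg h1, if_pos h2, Finset.empty_union, hYI, if_neg h1, if_pos h3, zero_add, h3]
    · have h3 : ¬ (cY Y ψ = j - 1) := by omega
      rw [if_neg h1, if_neg h2, if_neg h1, if_neg h3]
      simp

open Classical in
lemma incl {m : ℕ} (X Y : Finset B) (hXY : Disjoint X Y) (hX : X.card = m)
    (hY : m + 1 ≤ Y.card) (g : (Fin m → B) → ℂ)
    (h : ∀ ψ1 : Fin (m + 1) → B, PP X Y ψ1 →
      ∑ σ : Equiv.Perm (Fin (m + 1)), g (fun i => ψ1 (σ i.castSucc)) = 0)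
    (ψ0 : Fin m → B) (h0 : Function.Injective ψ0) (h0X : ∀ i, ψ0 i ∈ X) :
    ∑ σ : Equiv.Perm (Fin m), g (fun i => ψ0 (σ i)) = 0 := by
  obtain ⟨S, hS⟩ : ∃ S : ℕ → ℂ, ∀ j, S j = ∑ ψ ∈ univ.filter
      (fun ψ : Fin m → B => PP X Y ψ ∧ cY Y ψ = j), g ψ := ⟨_, fun _ => rfl⟩
  have hcle : ∀ ψ : Fin m → B, cY Y ψ ≤ m := fun ψ => by
    rw [cY]
    refine (Finset.card_filter_le _ _).trans ?_
    rw [Finset.card_univ, Fintype.card_fin]
  have hrel0 : ∀ j, ∑ ψ1 ∈ univ.filter (fun ψ1 : Fin (m + 1) → B => PP X Y ψ1 ∧ cY Y ψ1 = j),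
      g (fun i => ψ1 i.castSucc) = 0 := by
    intro j
    have h1 : ∀ σ : Equiv.Perm (Fin (m + 1)),
        ∑ ψ1 ∈ univ.filter (fun ψ1 : Fin (m + 1) → B => PP X Y ψ1 ∧ cY Y ψ1 = j),
          g (fun i => ψ1 i.castSucc) =
        ∑ ψ1 ∈ univ.filter (fun ψ1 : Fin (m + 1) → B => PP X Y ψ1 ∧ cY Y ψ1 = j),
          g (fun i => ψ1 (σ i.castSucc)) := by
      intro σ
      refine Finset.sum_nbij' (fun ψ1 i => ψ1 (σ.symm i)) (fun ψ1 i => ψ1 (σ i)) ?_ ?_ ?_ ?_ ?_
      · intro ψ1 hψ1
        rw [mem_filter] at hψ1 ⊢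
        refine ⟨mem_univ _, ⟨hψ1.2.1.1.comp σ.symm.injective, fun i => hψ1.2.1.2 _⟩, ?_⟩
        rw [← hψ1.2.2, cY, cY, ← Finset.card_map σ.symm.toEmbedding]
        congr 1
        ext i
        simp only [mem_map, mem_filter, mem_univ, true_and, Equiv.coe_toEmbedding]
        constructor
        · rintro ⟨k, hk, rfl⟩
          exact hk
        · intro hi
          exact ⟨σ i, by simpa using hi, by simp⟩
      · intro ψ1 hψ1
        rw [mem_filter] at hψ1 ⊢
        refine ⟨mem_univ _, ⟨hψ1.2.1.1.comp σ.injective, fun i => hψ1.2.1.2 _⟩, ?_⟩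
        rw [← hψ1.2.2, cY, cY, ← Finset.card_map σ.toEmbedding]
        congr 1
        ext i
        simp only [mem_map, mem_filter, mem_univ, true_and, Equiv.coe_toEmbedding]
        constructor
        · rintro ⟨k, hk, rfl⟩
          exact hk
        · intro hi
          exact ⟨σ.symm i, by simpa using hi, by simp⟩
      · intro ψ1 _
        funext i
        simp
      · intro ψ1 _
        funext i
        simp
      · intro ψ1 _
        simp
    have h2 : (Fintype.card (Equiv.Perm (Fin (m + 1))) : ℂ) *
        ∑ ψ1 ∈ univ.filter (fun ψ1 : Fin (m + 1) → B => PP X Y ψ1 ∧ cY Y ψ1 = j),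
          g (fun i => ψ1 i.castSucc) = 0 := by
      calc _ = ∑ _σ : Equiv.Perm (Fin (m + 1)),
            ∑ ψ1 ∈ univ.filter (fun ψ1 : Fin (m + 1) → B => PP X Y ψ1 ∧ cY Y ψ1 = j),
              g (fun i => ψ1 i.castSucc) := by
            rw [Finset.sum_const, Finset.card_univ, nsmul_eq_mul]
        _ = ∑ σ : Equiv.Perm (Fin (m + 1)),
            ∑ ψ1 ∈ univ.filter (fun ψ1 : Fin (m + 1) → B => PP X Y ψ1 ∧ cY Y ψ1 = j),
              g (fun i => ψ1 (σ i.castSucc)) := Finset.sum_congr rfl fun σ _ => h1 σ
        _ = ∑ ψ1 ∈ univ.filter (fun ψ1 : Fin (m + 1) → B => PP X Y ψ1 ∧ cY Y ψ1 = j),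
            ∑ σ : Equiv.Perm (Fin (m + 1)), g (fun i => ψ1 (σ i.castSucc)) :=
            Finset.sum_comm
        _ = 0 := Finset.sum_eq_zero fun ψ1 hψ1 => h ψ1 (mem_filter.1 hψ1).2.1
    rcases mul_eq_zero.1 h2 with h3 | h3
    · exact absurd (Nat.cast_eq_zero.1 h3) Fintype.card_ne_zero
    · exact h3
  have hrel : ∀ j : ℕ, 1 ≤ j → (j : ℂ) * S j + ((Y.card - (j - 1) : ℕ) : ℂ) * S (j - 1) = 0 := by
    intro j hj
    rw [← hrel0 j, hS, hS, Finset.mul_sum, Finset.mul_sum]
    have e1 : ∑ ψ1 ∈ univ.filter (fun ψ1 : Fin (m + 1) → B => PP X Y ψ1 ∧ cY Y ψ1 = j),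
        g (fun i => ψ1 i.castSucc) = ∑ ψ : Fin m → B, ∑ b : B,
          if PP X Y ψ ∧ ((b ∈ X ∪ Y ∧ ∀ i, ψ i ≠ b) ∧
            cY Y ψ + (if b ∈ Y then 1 else 0) = j) then g ψ else 0 := by
      rw [Finset.sum_filter, ← Equiv.sum_comp (Fin.snocEquiv (fun _ => B)),
        Fintype.sum_prod_type, Finset.sum_comm]
      apply Finset.sum_congr rfl
      intro ψ _
      apply Finset.sum_congr rfl
      intro b _
      have hs1 : (Fin.snocEquiv (fun _ => B)) (b, ψ) = Fin.snoc (α := fun _ => B) ψ b := rfl
      rw [hs1]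
      have hg : (fun i : Fin m => Fin.snoc (α := fun _ => B) ψ b i.castSucc) = ψ := by
        funext i
        exact Fin.snoc_castSucc (α := fun _ => B) b ψ i
      have hcard : cY Y (Fin.snoc (α := fun _ => B) ψ b : Fin (m + 1) → B) =
          cY Y ψ + (if b ∈ Y then 1 else 0) := by
        rw [cY, cY, Finset.card_filter, Finset.card_filter, Fin.sum_univ_castSucc]
        congr 1
        · apply Finset.sum_congr rfl
          intro i _
          rw [Fin.snoc_castSucc (α := fun _ => B)]
        · rw [Fin.snoc_last (α := fun _ => B)]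
      have hPP : PP X Y (Fin.snoc (α := fun _ => B) ψ b : Fin (m + 1) → B) ↔
          PP X Y ψ ∧ (b ∈ X ∪ Y ∧ ∀ i, ψ i ≠ b) := by
        constructor
        · rintro ⟨i1, i2⟩
          refine ⟨⟨?_, ?_⟩, ?_, ?_⟩
          · intro x y hxy
            have := i1 (a₁ := x.castSucc) (a₂ := y.castSucc) (by
              rw [Fin.snoc_castSucc (α := fun _ => B), Fin.snoc_castSucc (α := fun _ => B)]
              exact hxy)
            exact Fin.castSucc_injective _ this
          · intro i
            have := i2 i.castSucc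
            rwa [Fin.snoc_castSucc (α := fun _ => B)] at this
          · have := i2 (Fin.last m)
            rwa [Fin.snoc_last (α := fun _ => B)] at this
          · intro i hi
            have := i1 (a₁ := i.castSucc) (a₂ := Fin.last m) (by
              rw [Fin.snoc_castSucc (α := fun _ => B), Fin.snoc_last (α := fun _ => B)]
              exact hi)
            exact absurd this (Fin.castSucc_lt_last i).ne
        · rintro ⟨⟨i1, i2⟩, i3, i4⟩
          refine ⟨?_, ?_⟩
          · intro x y hxy
            induction x using Fin.lastCases with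
            | last =>
              induction y using Fin.lastCases with
              | last => rfl
              | cast y =>
                rw [Fin.snoc_last (α := fun _ => B), Fin.snoc_castSucc (α := fun _ => B)] at hxy
                exact absurd hxy.symm (i4 y)
            | cast x =>
              induction y using Fin.lastCases with
              | last =>
                rw [Fin.snoc_last (α := fun _ => B), Fin.snoc_castSucc (α := fun _ => B)] at hxy
                exact absurd hxy (i4 x)
              | cast y =>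
                rw [Fin.snoc_castSucc (α := fun _ => B),
                  Fin.snoc_castSucc (α := fun _ => B)] at hxy
                rw [i1 hxy]
          · intro i
            induction i using Fin.lastCases with
            | last => rw [Fin.snoc_last (α := fun _ => B)]; exact i3
            | cast i => rw [Fin.snoc_castSucc (α := fun _ => B)]; exact i2 i
      rw [hg, hcard]
      congr 1
      rw [hPP, and_assoc]
    rw [e1]
    have e2 : ∀ ψ : Fin m → B, (∑ b : B, if PP X Y ψ ∧ ((b ∈ X ∪ Y ∧ ∀ i, ψ i ≠ b) ∧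
        cY Y ψ + (if b ∈ Y then 1 else 0) = j) then g ψ else 0) =
        (if PP X Y ψ ∧ cY Y ψ = j then (j : ℂ) * g ψ else 0) +
        (if PP X Y ψ ∧ cY Y ψ = j - 1 then ((Y.card - (j - 1) : ℕ) : ℂ) * g ψ else 0) := by
      intro ψ
      by_cases hp : PP X Y ψ
      · have h3 := card_ways X Y hXY hX hY ψ hp j hj
        simp only [hp, true_and]
        rw [← Finset.sum_filter, Finset.sum_const, nsmul_eq_mul, h3]
        push_cast
        split_ifs <;> ring
      · simp [hp]
    rw [Finset.sum_congr rfl (fun ψ _ => e2 ψ), Finset.sum_add_distrib, ← Finset.sum_filter,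
      ← Finset.sum_filter]
  have hS0 : ∀ d j : ℕ, j + d = m → S j = 0 := by
    intro d
    induction d with
    | zero =>
      intro j hj
      have h1 := hrel (m + 1) (by omega)
      have h2 : S (m + 1) = 0 := by
        rw [hS]
        apply Finset.sum_eq_zero
        intro ψ hψ
        have := (mem_filter.1 hψ).2.2
        have := hcle ψ
        omega
      rw [h2, mul_zero, zero_add, Nat.add_sub_cancel] at h1
      rcases mul_eq_zero.1 h1 with h3 | h3
      · have := Nat.cast_eq_zero.1 h3
        omega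
      · rw [show j = m by omega]
        exact h3
    | succ d ih =>
      intro j hj
      have h1 := hrel (j + 1) (by omega)
      rw [ih (j + 1) (by omega), mul_zero, zero_add, Nat.add_sub_cancel] at h1
      rcases mul_eq_zero.1 h1 with h3 | h3
      · have := Nat.cast_eq_zero.1 h3
        omega
      · exact h3
  have h4 := hS0 m 0 (by omega)
  rw [hS] at h4
  rw [← h4]
  have hXim : univ.image ψ0 = X := by
    apply Finset.eq_of_subset_of_card_le
    · intro b hb
      obtain ⟨i, -, rfl⟩ := mem_image.1 hb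
      exact h0X i
    · rw [Finset.card_image_of_injective _ h0, hX, Finset.card_univ, Fintype.card_fin]
  refine Finset.sum_bij (fun σ _ i => ψ0 (σ i)) ?_ ?_ ?_ ?_
  · intro σ _
    rw [mem_filter]
    refine ⟨mem_univ _, ⟨h0.comp σ.injective, fun i => mem_union_left _ (h0X _)⟩, ?_⟩
    rw [cY, Finset.card_eq_zero, Finset.filter_eq_empty_iff]
    intro i _
    exact Finset.disjoint_left.1 hXY (h0X _)
  · intro σ _ σ' _ hσ
    apply Equiv.ext
    intro i
    exact h0 (congrFun hσ i)
  · intro ψ hψ
    rw [mem_filter] at hψ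
    obtain ⟨-, ⟨hψ1, hψ2⟩, hψ3⟩ := hψ
    have h5 : ∀ i, ∃ j, ψ0 j = ψ i := by
      intro i
      rw [cY, Finset.card_eq_zero, Finset.filter_eq_empty_iff] at hψ3
      have h6 : ψ i ∈ X := by
        rcases mem_union.1 (hψ2 i) with h | h
        · exact h
        · exact absurd h (hψ3 (mem_univ i))
      rw [← hXim] at h6
      obtain ⟨j, -, hj⟩ := mem_image.1 h6
      exact ⟨j, hj⟩
    choose σ hσ using h5
    have hσi : Function.Injective σ := by
      intro i j hij
      apply hψ1
      rw [← hσ i, ← hσ j, hij]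
    refine ⟨Equiv.ofBijective σ (Finite.injective_iff_bijective.1 hσi), mem_univ _, ?_⟩
    funext i
    exact hσ i
  · intro σ _
    rfl


/-- Placement of the boxes `ψ j` in the rows `π j`. -/
noncomputable def put {a m : ℕ} (ρ : Fin m → Fin a) (ψ : Fin m → B) (e : B → Fin a) : B → Fin a :=
  fun p => open Classical in if h : ∃ j, ψ j = p then ρ h.choose else e p

lemma put_apply {a m : ℕ} (ρ : Fin m → Fin a) (ψ : Fin m → B) (hψ : Function.Injective ψ)
    (e : B → Fin a) (j : Fin m) : put ρ ψ e (ψ j) = ρ j := by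
  classical
  have h : ∃ j', ψ j' = ψ j := ⟨j, rfl⟩
  rw [put, dif_pos h, hψ h.choose_spec]

lemma put_ne {a m : ℕ} (ρ : Fin m → Fin a) (ψ : Fin m → B)
    (e : B → Fin a) (p : B) (h : ∀ j, ψ j ≠ p) : put ρ ψ e p = e p := by
  classical
  rw [put, dif_neg (by push Not; exact h)]

/-- The statement for the first `m` rows. -/
def QQ {a : ℕ} (V : (B → Fin a) → ℂ) (Z : Finset B) (β : Fin a → ℕ) (e0 : B → Fin a)
    (π : Equiv.Perm (Fin a)) (m : ℕ) (hm : m ≤ a) : Prop :=
  ∀ e : B → Fin a, (∀ p, p ∉ Z → e p = e0 p) →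
    (∀ i, (Z.filter (fun p => e p = i)).card = β i) →
    ∀ ψ : Fin m → B, (∀ j, ψ j ∈ Z) → (∀ j, e (ψ j) = π (Fin.castLE hm j)) →
      ∑ σ : Equiv.Perm (Fin m), V (put (fun j => π (Fin.castLE hm j)) (fun j => ψ (σ j)) e) = 0

lemma QQ_step {a : ℕ} (V : (B → Fin a) → ℂ) (Z : Finset B) (β : Fin a → ℕ) (e0 : B → Fin a)
    (π : Equiv.Perm (Fin a)) (hβ : ∀ m : Fin a, (m : ℕ) + 1 ≤ β (π m)) (m : ℕ) (hm : m + 1 ≤ a)
    (h : QQ V Z β e0 π (m + 1) hm) : QQ V Z β e0 π m (by omega) := by
  classical
  intro e he1 he2 ψ0 hψ0 hψ1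
  have hm' : m ≤ a := by omega
  obtain ⟨i0, hi0⟩ : ∃ i0 : Fin a, i0 = ⟨m, by omega⟩ := ⟨_, rfl⟩
  have hψi : Function.Injective ψ0 := by
    intro x y hxy
    have h1 : π (Fin.castLE hm' x) = π (Fin.castLE hm' y) := by
      rw [← hψ1 x, ← hψ1 y, hxy]
    exact Fin.castLE_injective hm' (π.injective h1)
  obtain ⟨X, hX⟩ : ∃ X, X = univ.image ψ0 := ⟨_, rfl⟩
  obtain ⟨Y, hY⟩ : ∃ Y, Y = Z.filter (fun p => e p = π i0) := ⟨_, rfl⟩
  have hXc : X.card = m := by
    rw [hX, Finset.card_image_of_injective _ hψi, Finset.card_univ, Fintype.card_fin]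
  have hYc : m + 1 ≤ Y.card := by
    rw [hY, he2]
    have := hβ i0
    rw [hi0] at this ⊢
    exact this
  have hne : ∀ j : Fin m, π (Fin.castLE hm' j) ≠ π i0 := by
    intro j hj
    have h1 := π.injective hj
    rw [hi0] at h1
    have h2 := congrArg Fin.val h1
    simp at h2
    have := j.2
    omega
  have hXY : Disjoint X Y := by
    rw [Finset.disjoint_left]
    intro p hp hp2
    rw [hX] at hp
    obtain ⟨j, -, rfl⟩ := mem_image.1 hp
    rw [hY, mem_filter, hψ1 j] at hp2
    exact hne j hp2.2
  have hXZ : ∀ p ∈ X, p ∈ Z := by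
    intro p hp
    rw [hX] at hp
    obtain ⟨j, -, rfl⟩ := mem_image.1 hp
    exact hψ0 j
  have hYZ : ∀ p ∈ Y, p ∈ Z := by
    intro p hp
    rw [hY] at hp
    exact (mem_filter.1 hp).1
  obtain ⟨e', he'⟩ : ∃ e' : B → Fin a, e' = fun p => if p ∈ X then π i0 else e p := ⟨_, rfl⟩
  have hput0 : ∀ σ : Equiv.Perm (Fin m),
      put (fun j => π (Fin.castLE hm' j)) (fun j => ψ0 (σ j)) e =
      put (fun j => π (Fin.castLE hm' j)) (fun j => ψ0 (σ j)) e' := by
    intro σ
    funext p
    by_cases hp : ∃ j, ψ0 (σ j) = p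
    · obtain ⟨j, rfl⟩ := hp
      rw [put_apply _ (fun j => ψ0 (σ j)) (hψi.comp σ.injective) _ j,
        put_apply _ (fun j => ψ0 (σ j)) (hψi.comp σ.injective) _ j]
    · push Not at hp
      rw [put_ne _ _ _ _ hp, put_ne _ _ _ _ hp, he']
      have hpX : p ∉ X := by
        rw [hX]
        intro h3
        obtain ⟨j, -, hj⟩ := mem_image.1 h3
        apply hp (σ.symm j)
        rw [Equiv.apply_symm_apply]
        exact hj
      simp only [if_neg hpX]
  rw [Finset.sum_congr rfl (fun σ _ => by rw [hput0 σ])]
  refine incl X Y hXY hXc hYc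
    (fun ψ => V (put (fun j => π (Fin.castLE hm' j)) ψ e')) ?_ ψ0 hψi (fun i => by
      rw [hX]
      exact mem_image_of_mem _ (mem_univ _))
  intro ψ1 hψ1P
  obtain ⟨hinj, hmem⟩ := hψ1P
  -- the base filling
  obtain ⟨e1, he1'⟩ : ∃ e1 : B → Fin a,
      e1 = put (fun j => π (Fin.castLE hm j)) ψ1 e' := ⟨_, rfl⟩
  have hmemZ : ∀ j, ψ1 j ∈ Z := fun j => by
    rcases mem_union.1 (hmem j) with h3 | h3
    · exact hXZ _ h3
    · exact hYZ _ h3
  have hlast : Fin.castLE hm (Fin.last m) = i0 := by
    rw [hi0]
    rfl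
  have hcast : ∀ j : Fin m, Fin.castLE hm j.castSucc = Fin.castLE hm' j := fun j => rfl
  have hA : ∀ p, p ∉ Z → e1 p = e0 p := by
    intro p hp
    rw [he1', put_ne _ _ _ _ (fun j hj => hp (by rw [← hj]; exact hmemZ j)), he']
    have : p ∉ X := fun h3 => hp (hXZ p h3)
    simp only [if_neg this]
    exact he1 p hp
  have hB : ∀ i, (Z.filter (fun p => e1 p = i)).card = β i := by
    intro i
    rw [← he2 i]
    -- compare outside and inside `X ∪ Y`
    have hsub : X ∪ Y ⊆ Z := by
      intro p hp
      rcases mem_union.1 hp with h3 | h3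
      · exact hXZ p h3
      · exact hYZ p h3
    have hout : ∀ p, p ∉ X ∪ Y → e1 p = e p := by
      intro p hp
      rw [he1', put_ne _ _ _ _ (fun j hj => hp (by rw [← hj]; exact hmem j)), he']
      have : p ∉ X := fun h3 => hp (mem_union_left _ h3)
      simp only [if_neg this]
    have hs : ∀ f : B → Fin a, (Z.filter (fun p => f p = i)).card =
        ((X ∪ Y).filter (fun p => f p = i)).card + ((Z \ (X ∪ Y)).filter (fun p => f p = i)).card := by
      intro f
      rw [← Finset.card_union_of_disjoint, ← Finset.filter_union,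
        Finset.union_sdiff_of_subset hsub]
      exact Finset.disjoint_filter_filter Finset.disjoint_sdiff
    rw [hs e1, hs e]
    have hout2 : ((Z \ (X ∪ Y)).filter (fun p => e1 p = i)) =
        ((Z \ (X ∪ Y)).filter (fun p => e p = i)) := by
      apply Finset.filter_congr
      intro p hp
      rw [hout p (mem_sdiff.1 hp).2]
    rw [hout2]
    congr 1
    -- inside
    have hin : ∀ p ∈ X ∪ Y, (∀ j, ψ1 j ≠ p) → e1 p = π i0 := by
      intro p hp hj
      rw [he1', put_ne _ _ _ _ hj, he']
      by_cases hpX : p ∈ X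
      · simp only [if_pos hpX]
      · simp only [if_neg hpX]
        rcases mem_union.1 hp with h3 | h3
        · exact absurd h3 hpX
        · rw [hY] at h3
          exact (mem_filter.1 h3).2
    have hlow : ∀ f : B → Fin a, ∀ ψ : Fin m → B, Function.Injective ψ →
        (∀ j, ψ j ∈ X ∪ Y) → (∀ j, f (ψ j) = π (Fin.castLE hm' j)) →
        (∀ p ∈ X ∪ Y, (∀ j, ψ j ≠ p) → f p = π i0) →
        ((X ∪ Y).filter (fun p => f p = i)).card =
          if i = π i0 then (X ∪ Y).card - m
          else (univ.filter (fun j : Fin m => π (Fin.castLE hm' j) = i)).card := by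
      intro f ψ h3 h4 h5 h6
      have himg : (univ.image ψ).card = m := by
        rw [Finset.card_image_of_injective _ h3, Finset.card_univ, Fintype.card_fin]
      split_ifs with h7
      · have h8 : ((X ∪ Y).filter (fun p => f p = i)) = (X ∪ Y) \ univ.image ψ := by
          ext p
          rw [mem_filter, mem_sdiff]
          constructor
          · rintro ⟨h9, h10⟩
            refine ⟨h9, fun h11 => ?_⟩
            obtain ⟨j, -, rfl⟩ := mem_image.1 h11
            rw [h5 j, h7] at h10
            exact hne j h10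
          · rintro ⟨h9, h10⟩
            refine ⟨h9, ?_⟩
            rw [h6 p h9 (fun j hj => h10 (mem_image.2 ⟨j, mem_univ _, hj⟩)), h7]
        rw [h8, Finset.card_sdiff_of_subset, himg]
        intro p hp
        obtain ⟨j, -, rfl⟩ := mem_image.1 hp
        exact h4 j
      · rw [← Finset.card_image_of_injective _ h3]
        congr 1
        ext p
        rw [mem_filter, mem_image]
        constructor
        · rintro ⟨h9, h10⟩
          by_cases h11 : ∃ j, ψ j = p
          · obtain ⟨j, rfl⟩ := h11
            exact ⟨j, mem_filter.2 ⟨mem_univ _, by rw [← h5 j]; exact h10⟩, rfl⟩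
          · push Not at h11
            rw [h6 p h9 h11] at h10
            exact absurd h10.symm h7
        · rintro ⟨j, hj, rfl⟩
          exact ⟨h4 j, by rw [h5 j]; exact (mem_filter.1 hj).2⟩
    rw [hlow e1 (fun j => ψ1 j.castSucc) (hinj.comp (Fin.castSucc_injective m))
        (fun j => hmem _) (fun j => by
          rw [he1', put_apply _ _ hinj]
          rfl) (fun p hp hj => by
          by_cases h12 : ψ1 (Fin.last m) = p
          · rw [← h12, he1', put_apply _ _ hinj, hlast]
          · apply hin p hp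
            intro j
            induction j using Fin.lastCases with
            | last => exact h12
            | cast j => exact hj j),
      hlow e ψ0 hψi (fun j => mem_union_left _ (by
          rw [hX]
          exact mem_image_of_mem _ (mem_univ _))) hψ1 (fun p hp hj => by
          rcases mem_union.1 hp with h3 | h3
          · rw [hX] at h3
            obtain ⟨j, -, h4⟩ := mem_image.1 h3
            exact absurd h4 (hj j)
          · rw [hY] at h3
            exact (mem_filter.1 h3).2)]
  have hC := h e1 hA hB ψ1 hmemZ (fun j => by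
    rw [he1', put_apply _ _ hinj])
  rw [← hC]
  apply Finset.sum_congr rfl
  intro σ _
  congr 1
  funext p
  have hinj2 : Function.Injective (fun j => ψ1 (σ j)) := hinj.comp σ.injective
  have hinj3 : Function.Injective (fun j : Fin m => ψ1 (σ j.castSucc)) :=
    hinj2.comp (Fin.castSucc_injective m)
  by_cases hp : ∃ j, ψ1 (σ j) = p
  · obtain ⟨j, rfl⟩ := hp
    rw [put_apply _ (fun j => ψ1 (σ j)) hinj2 _ j]
    induction j using Fin.lastCases with
    | last =>
      rw [put_ne _ _ _ _ (fun j hj => by
        have := hinj2 hj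
        exact absurd this (Fin.castSucc_lt_last j).ne), hlast, he']
      by_cases hpX : ψ1 (σ (Fin.last m)) ∈ X
      · simp only [if_pos hpX]
      · simp only [if_neg hpX]
        rcases mem_union.1 (hmem (σ (Fin.last m))) with h3 | h3
        · exact absurd h3 hpX
        · rw [hY] at h3
          exact (mem_filter.1 h3).2
    | cast j =>
      rw [put_apply _ (fun j : Fin m => ψ1 (σ j.castSucc)) hinj3 _ j]
      rfl
  · push Not at hp
    rw [put_ne _ _ _ _ (fun j => hp j.castSucc), put_ne _ _ _ _ hp, he1',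
      put_ne _ _ _ _ (fun j hj => hp (σ.symm j) (by
        rw [Equiv.apply_symm_apply]
        exact hj))]

theorem rowR1 : RowR1 := by
  classical
  intro B _ _ a V Z β e0 π hβ hmain e he1 he2
  have hall : ∀ d m : ℕ, m + d = a → ∀ hm : m ≤ a, QQ V Z β e0 π m hm := by
    intro d
    induction d with
    | zero =>
      intro m hmd hm
      have hma : m = a := by omega
      subst hma
      intro e he1 he2 ψ hψ1 hψ2
      have h1 := hmain e he1 he2 (fun i => ψ (π.symm i)) (fun i => hψ1 _) (fun i => by
        rw [hψ2]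
        simp)
      rw [← h1]
      have hψi : Function.Injective ψ := by
        intro x y hxy
        have h1 : π (Fin.castLE hm x) = π (Fin.castLE hm y) := by
          rw [← hψ2 x, ← hψ2 y, hxy]
        exact Fin.castLE_injective hm (π.injective h1)
      refine Fintype.sum_equiv (Equiv.mk (fun σ => (π.symm.trans σ.symm).trans π)
        (fun σ => (π.trans σ.symm).trans π.symm) ?_ ?_) _ _ ?_
      · intro σ
        ext j
        simp
      · intro σ
        ext j
        simp
      · intro σ
        congr 1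
        funext p
        by_cases hp : ∃ j, ψ j = p
        · obtain ⟨j, rfl⟩ := hp
          have h2 : put (fun j => π (Fin.castLE hm j)) (fun j => ψ (σ j)) e (ψ j) =
              π (σ.symm j) := by
            have h3 := put_apply (fun j => π (Fin.castLE hm j)) (fun j => ψ (σ j))
              (hψi.comp σ.injective) e (σ.symm j)
            simp only [Equiv.apply_symm_apply] at h3
            rw [h3]
            rfl
          rw [h2, spr]
          have h4 : ∃ i, ψ (π.symm i) = ψ j := ⟨π j, by simp⟩
          rw [dif_pos h4]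
          have h5 := hψi h4.choose_spec
          simp only [Equiv.coe_fn_mk, Equiv.trans_apply]
          rw [h5]
        · push Not at hp
          rw [put_ne _ _ _ _ (fun j => hp _), spr, dif_neg (by push Not; exact fun i => hp _)]
    | succ d ih =>
      intro m hmd hm
      exact QQ_step V Z β e0 π hβ m (by omega) (ih (m + 1) (by omega) (by omega))
  have h0 := hall a 0 (by omega) (by omega) e he1 he2 (fun j => j.elim0) (fun j => j.elim0)
    (fun j => j.elim0)
  rw [Fintype.sum_unique] at h0
  rw [← h0]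
  congr 1

end Vale.Agent.P181.LK.R1
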