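import Vale.Agent.P181.T3.Spec

/-!
P181, power map, one-scale structure theorem: the potential (cost of the best partition of the rows
into parts of at most `s` rows, then the number of best partitions).
-/

set_option autoImplicit false

namespace Vale.Agent.P181.SK

open Finset

variable {a : ℕ}

/-- Cost of a partition of the rows (given by labels): overlaps minus a constant, over the ordered
pairs of different rows in the same part. -/
def FK (s X : ℕ) (c : Fin a → Fin a → ℕ) (P : Fin a → Fin a) : ℤ :=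
  ∑ i, ∑ j, if i ≠ j ∧ P i = P j then ((s * (s + 1) * c i j : ℕ) : ℤ) - X else 0

/-- Partitions into parts of at most `s` rows. -/
def Adm (a s : ℕ) : Finset (Fin a → Fin a) :=
  univ.filter (fun P => ∀ k, (univ.filter (fun i => P i = k)).card ≤ s)

lemma mem_Adm {s : ℕ} {P : Fin a → Fin a} :
    P ∈ Adm a s ↔ ∀ k, (univ.filter (fun i => P i = k)).card ≤ s := by
  rw [Adm, Finset.mem_filter]
  exact ⟨fun h => h.2, fun h => ⟨Finset.mem_univ _, h⟩⟩

lemma id_mem_Adm {s : ℕ} (hs : 1 ≤ s) : (id : Fin a → Fin a) ∈ Adm a s := by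
  rw [mem_Adm]
  intro k
  have h1 : univ.filter (fun i : Fin a => id i = k) = {k} := by
    ext i
    simp
  rw [h1, Finset.card_singleton]
  exact hs

lemma FK_id (s X : ℕ) (c : Fin a → Fin a → ℕ) : FK s X c id = 0 := by
  unfold FK
  apply Finset.sum_eq_zero
  intro i _
  apply Finset.sum_eq_zero
  intro j _
  rw [if_neg]
  rintro ⟨h1, h2⟩
  exact h1 h2

/-- Minus the minimal cost. -/
def muK (s X : ℕ) (c : Fin a → Fin a → ℕ) : ℕ := (Adm a s).sup (fun P => (-FK s X c P).toNat)

lemma muK_le {s X : ℕ} {c : Fin a → Fin a → ℕ} {P : Fin a → Fin a} (hP : P ∈ Adm a s) :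
    -(muK s X c : ℤ) ≤ FK s X c P := by
  have h1 : (-FK s X c P).toNat ≤ muK s X c :=
    Finset.le_sup (f := fun P => (-FK s X c P).toNat) hP
  have h2 := Int.self_le_toNat (-FK s X c P)
  have h3 : ((-FK s X c P).toNat : ℤ) ≤ muK s X c := by exact_mod_cast h1
  linarith

lemma exists_muK {s : ℕ} (hs : 1 ≤ s) (X : ℕ) (c : Fin a → Fin a → ℕ) :
    ∃ P ∈ Adm a s, FK s X c P = -(muK s X c : ℤ) := by
  obtain ⟨P, hP, h1⟩ := Finset.exists_mem_eq_sup (Adm a s) ⟨id, id_mem_Adm hs⟩
    (fun P => (-FK s X c P).toNat)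
  have h1' : muK s X c = (-FK s X c P).toNat := h1
  by_cases h0 : 0 ≤ -FK s X c P
  · refine ⟨P, hP, ?_⟩
    rw [h1', Int.toNat_of_nonneg h0]
    ring
  · refine ⟨id, id_mem_Adm hs, ?_⟩
    rw [FK_id, h1', Int.toNat_of_nonpos (by linarith)]
    simp

open Classical in
/-- Best partitions. -/
noncomputable def optK (s X : ℕ) (c : Fin a → Fin a → ℕ) : Finset (Fin a → Fin a) :=
  (Adm a s).filter (fun P => FK s X c P = -(muK s X c : ℤ))

lemma mem_optK {s X : ℕ} {c : Fin a → Fin a → ℕ} {P : Fin a → Fin a} :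
    P ∈ optK s X c ↔ P ∈ Adm a s ∧ FK s X c P = -(muK s X c : ℤ) := by
  classical
  unfold optK
  rw [Finset.mem_filter]

/-- The potential. -/
noncomputable def wtK (s X : ℕ) (c : Fin a → Fin a → ℕ) : ℕ :=
  muK s X c * (a ^ a + 1) + (optK s X c).card

lemma card_optK_le (s X : ℕ) (c : Fin a → Fin a → ℕ) : (optK s X c).card ≤ a ^ a := by
  refine (Finset.card_le_univ _).trans (le_of_eq ?_)
  rw [Fintype.card_fun, Fintype.card_fin]

lemma wtK_lex {s X : ℕ} {c c' : Fin a → Fin a → ℕ} (h : wtK s X c ≤ wtK s X c') :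
    muK s X c ≤ muK s X c' ∧ (muK s X c' ≤ muK s X c → (optK s X c).card ≤ (optK s X c').card) := by
  unfold wtK at h
  have h1 := card_optK_le s X c'
  constructor
  · by_contra hlt
    push Not at hlt
    have h2 : (muK s X c' + 1) * (a ^ a + 1) ≤ muK s X c * (a ^ a + 1) :=
      Nat.mul_le_mul_right _ hlt
    nlinarith
  · intro h3
    have h4 : muK s X c' * (a ^ a + 1) ≤ muK s X c * (a ^ a + 1) := Nat.mul_le_mul_right _ h3
    omega

/-- The chosen best partition. -/
noncomputable def partK (s X : ℕ) (c : Fin a → Fin a → ℕ) : Fin a → Fin a :=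
  open Classical in if h : ∃ P, P ∈ optK s X c then h.choose else id

lemma partK_mem {s : ℕ} (hs : 1 ≤ s) (X : ℕ) (c : Fin a → Fin a → ℕ) :
    partK s X c ∈ optK s X c := by
  obtain ⟨P, hP, h1⟩ := exists_muK hs X c
  have h : ∃ P, P ∈ optK s X c := ⟨P, mem_optK.2 ⟨hP, h1⟩⟩
  unfold partK
  rw [dif_pos h]
  exact h.choose_spec

lemma card_partK {s : ℕ} (hs : 1 ≤ s) (X : ℕ) (c : Fin a → Fin a → ℕ) (k : Fin a) :
    (univ.filter (fun i => partK s X c i = k)).card ≤ s :=
  mem_Adm.1 (mem_optK.1 (partK_mem hs X c)).1 k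

/-- Averaging: large sets of rows have a large average overlap. -/
lemma gam_avg {s X : ℕ} {c : Fin a → Fin a → ℕ} (hs : 1 ≤ s)
    (hgam : ∀ S : Finset (Fin a), S.card = s + 1 → 2 * X ≤ ∑ p ∈ S.offDiag, c p.1 p.2) :
    ∀ r, s + 1 ≤ r → ∀ S : Finset (Fin a), S.card = r →
      2 * X * (r * (r - 1)) ≤ s * (s + 1) * ∑ p ∈ S.offDiag, c p.1 p.2 := by
  classical
  intro r hr
  induction r, hr using Nat.le_induction with
  | base =>
    intro S hS
    calc 2 * X * ((s + 1) * (s + 1 - 1)) = s * (s + 1) * (2 * X) := by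
          rw [Nat.add_sub_cancel]; ring
      _ ≤ _ := Nat.mul_le_mul_left _ (hgam S hS)
  | succ r hr ih =>
    intro S hS
    have h1 : ∑ k ∈ S, ∑ p ∈ (S.erase k).offDiag, c p.1 p.2 =
        (r - 1) * ∑ p ∈ S.offDiag, c p.1 p.2 := by
      have h2 : ∀ k ∈ S, ∑ p ∈ (S.erase k).offDiag, c p.1 p.2 =
          ∑ p ∈ S.offDiag, if k ≠ p.1 ∧ k ≠ p.2 then c p.1 p.2 else 0 := by
        intro k _
        rw [← Finset.sum_filter]
        apply Finset.sum_congr _ (fun _ _ => rfl)
        ext p
        rw [Finset.mem_offDiag, Finset.mem_filter, Finset.mem_offDiag, Finset.mem_erase,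
          Finset.mem_erase]
        constructor
        · rintro ⟨⟨h3, h4⟩, ⟨h5, h6⟩, h7⟩
          exact ⟨⟨h4, h6, h7⟩, h3.symm, h5.symm⟩
        · rintro ⟨⟨h4, h6, h7⟩, h3, h5⟩
          exact ⟨⟨h3.symm, h4⟩, ⟨h5.symm, h6⟩, h7⟩
      rw [Finset.sum_congr rfl h2, Finset.sum_comm, Finset.mul_sum]
      apply Finset.sum_congr rfl
      intro p hp
      rw [Finset.mem_offDiag] at hp
      rw [← Finset.sum_filter, Finset.sum_const, smul_eq_mul]
      congr 1
      have h3 : S.filter (fun k => k ≠ p.1 ∧ k ≠ p.2) = (S.erase p.1).erase p.2 := by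
        ext k
        rw [Finset.mem_filter, Finset.mem_erase, Finset.mem_erase]
        tauto
      rw [h3, Finset.card_erase_of_mem (Finset.mem_erase.2 ⟨hp.2.2.symm, hp.2.1⟩),
        Finset.card_erase_of_mem hp.1, hS]
      omega
    have h2 : ∀ k ∈ S, 2 * X * (r * (r - 1)) ≤
        s * (s + 1) * ∑ p ∈ (S.erase k).offDiag, c p.1 p.2 := by
      intro k hk
      apply ih
      rw [Finset.card_erase_of_mem hk, hS]
      rfl
    have h3 := Finset.sum_le_sum h2
    rw [Finset.sum_const, smul_eq_mul, hS, ← Finset.mul_sum, h1] at h3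
    have hr1 : 0 < r - 1 := by omega
    rw [Nat.add_sub_cancel]
    apply Nat.le_of_mul_le_mul_left _ hr1
    calc (r - 1) * (2 * X * ((r + 1) * r)) = (r + 1) * (2 * X * (r * (r - 1))) := by ring
      _ ≤ s * (s + 1) * ((r - 1) * ∑ p ∈ S.offDiag, c p.1 p.2) := h3
      _ = _ := by ring

/-- Splitting the large parts does not increase the cost. -/
lemma exists_split {s X : ℕ} {c : Fin a → Fin a → ℕ} (hs : 1 ≤ s)
    (hgam : ∀ S : Finset (Fin a), S.card = s + 1 → 2 * X ≤ ∑ p ∈ S.offDiag, c p.1 p.2)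
    (P : Fin a → Fin a) : ∃ P' ∈ Adm a s, FK s X c P' ≤ FK s X c P := by
  classical
  let fib : Fin a → Finset (Fin a) := fun i => univ.filter (fun j => P j = P i)
  have hfib : ∀ i, (fib i).Nonempty := fun i => ⟨i, Finset.mem_filter.2 ⟨Finset.mem_univ _, rfl⟩⟩
  have hfe : ∀ i j, P i = P j → fib i = fib j := by
    intro i j h
    simp only [fib, h]
  let rep : Fin a → Fin a := fun i => (fib i).min' (hfib i)
  have hrep : ∀ i, P (rep i) = P i := fun i =>
    (Finset.mem_filter.1 ((fib i).min'_mem (hfib i))).2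
  have hrep2 : ∀ i j, P i = P j → rep i = rep j := by
    intro i j h
    simp only [rep]
    congr 1
    exact hfe i j h
  let P' : Fin a → Fin a := fun i => if (fib i).card ≤ s then rep i else i
  have hP'1 : ∀ i, (fib i).card ≤ s → P' i = rep i := fun i h => if_pos h
  have hP'2 : ∀ i, ¬ (fib i).card ≤ s → P' i = i := fun i h => if_neg h
  have hPP : ∀ i, P (P' i) = P i := by
    intro i
    by_cases h : (fib i).card ≤ s
    · rw [hP'1 i h, hrep]
    · rw [hP'2 i h]
  have hiff : ∀ i j, P' i = P' j ↔ i = j ∨ (P i = P j ∧ (fib i).card ≤ s) := by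
    intro i j
    constructor
    · intro h
      have h1 : P i = P j := by rw [← hPP i, ← hPP j, h]
      by_cases h2 : (fib i).card ≤ s
      · exact Or.inr ⟨h1, h2⟩
      · left
        have h3 : ¬ (fib j).card ≤ s := by rw [← hfe i j h1]; exact h2
        rw [hP'2 i h2, hP'2 j h3] at h
        exact h
    · rintro (h | ⟨h1, h2⟩)
      · rw [h]
      · rw [hP'1 i h2, hP'1 j (by rw [← hfe i j h1]; exact h2)]
        exact hrep2 i j h1
  refine ⟨P', ?_, ?_⟩
  · rw [mem_Adm]
    intro k
    by_cases hk : ∃ i, P' i = k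
    · obtain ⟨i, rfl⟩ := hk
      by_cases h : (fib i).card ≤ s
      · refine (Finset.card_le_card ?_).trans h
        intro j hj
        rw [Finset.mem_filter] at hj ⊢
        refine ⟨Finset.mem_univ _, ?_⟩
        rw [← hPP j, hj.2, hPP i]
      · have h1 : univ.filter (fun j => P' j = P' i) ⊆ {i} := by
          intro j hj
          rw [Finset.mem_filter] at hj
          rw [Finset.mem_singleton]
          rcases (hiff i j).1 hj.2.symm with h2 | ⟨_, h2⟩
          · exact h2.symm
          · exact absurd h2 h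
        refine (Finset.card_le_card h1).trans ?_
        rw [Finset.card_singleton]
        exact hs
    · have h1 : univ.filter (fun j => P' j = k) = ∅ := by
        rw [Finset.filter_eq_empty_iff]
        intro j _ h
        exact hk ⟨j, h⟩
      rw [h1, Finset.card_empty]
      exact Nat.zero_le _
  · -- comparison
    have h1 : FK s X c P = FK s X c P' + ∑ i, ∑ j,
        if i ≠ j ∧ P i = P j ∧ ¬ (fib i).card ≤ s then
          ((s * (s + 1) * c i j : ℕ) : ℤ) - X else 0 := by
      unfold FK
      rw [← Finset.sum_add_distrib]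
      apply Finset.sum_congr rfl
      intro i _
      rw [← Finset.sum_add_distrib]
      apply Finset.sum_congr rfl
      intro j _
      by_cases hij : i = j
      · rw [if_neg (fun h => h.1 hij), if_neg (fun h => h.1 hij), if_neg (fun h => h.1 hij),
          add_zero]
      by_cases hP : P i = P j
      · by_cases hb : (fib i).card ≤ s
        · rw [if_pos ⟨hij, hP⟩, if_pos ⟨hij, (hiff i j).2 (Or.inr ⟨hP, hb⟩)⟩,
            if_neg (fun h => h.2.2 hb), add_zero]
        · rw [if_pos ⟨hij, hP⟩, if_neg (fun h => ?_), if_pos ⟨hij, hP, hb⟩, zero_add]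
          rcases (hiff i j).1 h.2 with h2 | ⟨_, h2⟩
          · exact hij h2
          · exact hb h2
      · rw [if_neg (fun h => hP h.2), if_neg (fun h => ?_), if_neg (fun h => hP h.2.1), add_zero]
        rcases (hiff i j).1 h.2 with h2 | ⟨h2, _⟩
        · exact hij h2
        · exact hP h2
    rw [h1]
    apply le_add_of_nonneg_right
    -- group by parts
    have h2 : ∑ i, ∑ j, (if i ≠ j ∧ P i = P j ∧ ¬ (fib i).card ≤ s then
          ((s * (s + 1) * c i j : ℕ) : ℤ) - X else 0) =
        ∑ d, ∑ p ∈ (univ.filter (fun i => P i = d)).offDiag,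
          (if ¬ (univ.filter (fun i => P i = d)).card ≤ s then
          ((s * (s + 1) * c p.1 p.2 : ℕ) : ℤ) - X else 0) := by
      rw [← Fintype.sum_prod_type' (fun i j => (if i ≠ j ∧ P i = P j ∧ ¬ (fib i).card ≤ s then
          ((s * (s + 1) * c i j : ℕ) : ℤ) - X else 0)),
        ← Finset.sum_fiberwise (univ : Finset (Fin a × Fin a)) (fun p => P p.1)]
      apply Finset.sum_congr rfl
      intro d _
      symm
      apply Finset.sum_subset_zero_on_sdiff
      · intro p hp
        rw [Finset.mem_offDiag, Finset.mem_filter] at hp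
        exact Finset.mem_filter.2 ⟨Finset.mem_univ _, hp.1.2⟩
      · intro p hp
        rw [Finset.mem_sdiff, Finset.mem_filter, Finset.mem_offDiag, Finset.mem_filter,
          Finset.mem_filter] at hp
        rw [if_neg]
        rintro ⟨h3, h4, _⟩
        exact hp.2 ⟨⟨Finset.mem_univ _, hp.1.2⟩, ⟨Finset.mem_univ _, by rw [← h4]; exact hp.1.2⟩,
          h3⟩
      · intro p hp
        rw [Finset.mem_offDiag, Finset.mem_filter, Finset.mem_filter] at hp
        have h5 : fib p.1 = univ.filter (fun i => P i = d) := by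
          simp only [fib, hp.1.2]
        rw [h5]
        apply if_congr _ rfl rfl
        constructor
        · intro h
          exact ⟨hp.2.2, by rw [hp.1.2, hp.2.1.2], h⟩
        · intro h
          exact h.2.2
    rw [h2]
    apply Finset.sum_nonneg
    intro d _
    set S := univ.filter (fun i => P i = d) with hS
    by_cases hb : S.card ≤ s
    · apply Finset.sum_nonneg
      intro p _
      rw [if_neg (fun h => h hb)]
    · have h3 := gam_avg hs hgam S.card (by omega) S rfl
      have h4 : ∑ p ∈ S.offDiag, (if ¬ S.card ≤ s then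
          ((s * (s + 1) * c p.1 p.2 : ℕ) : ℤ) - X else 0) =
          ((s * (s + 1) * ∑ p ∈ S.offDiag, c p.1 p.2 : ℕ) : ℤ) -
            X * (S.card * (S.card - 1) : ℕ) := by
        rw [Finset.sum_congr rfl (fun p _ => if_pos hb), Finset.sum_sub_distrib, Finset.sum_const,
          Finset.offDiag_card, Finset.mul_sum]
        push_cast
        rw [nsmul_eq_mul]
        have h6 : S.card * S.card - S.card = S.card * (S.card - 1) := by
          rw [Nat.mul_sub, Nat.mul_one]
        rw [h6]
        push_cast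
        ring
      rw [h4]
      have h5 : X * (S.card * (S.card - 1)) ≤ s * (s + 1) * ∑ p ∈ S.offDiag, c p.1 p.2 := by
        refine le_trans ?_ h3
        rw [mul_assoc 2 X]
        omega
      have h6 : ((X * (S.card * (S.card - 1)) : ℕ) : ℤ) ≤
          ((s * (s + 1) * ∑ p ∈ S.offDiag, c p.1 p.2 : ℕ) : ℤ) := by exact_mod_cast h5
      rw [Nat.cast_mul] at h6
      linarith

end Vale.Agent.P181.SK
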