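import Vale.Agent.P181.H629.PotK

/-!
P181, power map, one-scale structure theorem.
-/

set_option autoImplicit false

namespace Vale.Agent.P181.SK

open Finset Vale.Agent.P181.T3

variable {a : ℕ}

section average

lemma sum_updZ {ι Γ : Type*} [Fintype ι] [DecidableEq ι] [Fintype Γ] (i : ι)
    (f : (ι → Γ) → ℤ) : ∑ ω : ι → Γ, ∑ γ : Γ, f (Function.update ω i γ) =
      Fintype.card Γ * ∑ ω, f ω := by
  have h1 : ∑ ω : ι → Γ, ∑ γ : Γ, f (Function.update ω i γ) =
      ∑ p : (ι → Γ) × Γ, f (Function.update p.1 i p.2) := by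
    rw [Fintype.sum_prod_type]
  have h2 : ∑ p : (ι → Γ) × Γ, f p.1 = Fintype.card Γ * ∑ ω, f ω := by
    rw [Fintype.sum_prod_type, Finset.mul_sum]
    apply Finset.sum_congr rfl
    intro ω _
    simp only [Finset.sum_const, Finset.card_univ, nsmul_eq_mul]
  rw [h1, ← h2]
  apply Finset.sum_nbij' (fun p => (Function.update p.1 i p.2, p.1 i))
    (fun p => (Function.update p.1 i p.2, p.1 i))
  · intro p _; exact Finset.mem_univ _
  · intro p _; exact Finset.mem_univ _
  · intro p _
    simp
  · intro p _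
    simp
  · intro p _; rfl

lemma sum_two {Q : ℕ} {i j : Fin a} (hij : i ≠ j) (f : Fin Q → Fin Q → ℤ) :
    (Q : ℤ) ^ 2 * ∑ κ : Fin a → Fin Q, f (κ i) (κ j) = (Q : ℤ) ^ a * ∑ k, ∑ k', f k k' := by
  have h1 := sum_updZ (Γ := Fin Q) i (fun κ : Fin a → Fin Q => f (κ i) (κ j))
  have h2 := sum_updZ (Γ := Fin Q) j (fun κ : Fin a → Fin Q => ∑ k, f k (κ j))
  simp only [Function.update_self, Function.update_of_ne hij.symm, Fintype.card_fin] at h1 h2
  calc (Q : ℤ) ^ 2 * ∑ κ : Fin a → Fin Q, f (κ i) (κ j)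
      = Q * (Q * ∑ κ : Fin a → Fin Q, f (κ i) (κ j)) := by ring
    _ = ∑ _κ : Fin a → Fin Q, ∑ k', ∑ k, f k k' := by rw [← h1, ← h2]
    _ = (Q : ℤ) ^ a * ∑ k, ∑ k', f k k' := by
        rw [Finset.sum_const, Finset.card_univ, Fintype.card_fun, Fintype.card_fin,
          Fintype.card_fin, nsmul_eq_mul, Finset.sum_comm]
        push_cast
        rfl

/-- Number of pairs of pieces of two rows which go to the same part. -/
def MM {Q : ℕ} (y : Fin a × Fin Q → Fin a) (P : Fin a → Fin a) (i j : Fin a) : ℤ :=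
  ∑ k, ∑ k', if P (y (i, k)) = P (y (j, k')) then 1 else 0

/-- Some choice of one piece per row gives a partition that is not worse than the average. -/
lemma exists_kappa {s X Q : ℕ} (hQ : 1 ≤ Q) (c : Fin a → Fin a → ℕ) (y : Fin a × Fin Q → Fin a)
    (P : Fin a → Fin a) : ∃ κ : Fin a → Fin Q,
      (Q : ℤ) ^ 2 * FK s X c (fun i => P (y (i, κ i))) ≤
        ∑ i, ∑ j, if i ≠ j then MM y P i j * (((s * (s + 1) * c i j : ℕ) : ℤ) - X) else 0 := by
  classical
  have hne : (univ : Finset (Fin a → Fin Q)).Nonempty := ⟨fun _ => ⟨0, by omega⟩, mem_univ _⟩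
  obtain ⟨κ, _, h⟩ := Finset.exists_le_of_sum_le (s := (univ : Finset (Fin a → Fin Q)))
    (f := fun κ => (Q : ℤ) ^ 2 * FK s X c (fun i => P (y (i, κ i))))
    (g := fun _ => ∑ i, ∑ j, if i ≠ j then
      MM y P i j * (((s * (s + 1) * c i j : ℕ) : ℤ) - X) else 0) hne (by
      apply le_of_eq
      rw [Finset.sum_const, Finset.card_univ, Fintype.card_fun, Fintype.card_fin,
        Fintype.card_fin, nsmul_eq_mul, ← Finset.mul_sum]
      unfold FK
      rw [Finset.sum_comm, Finset.mul_sum, Finset.mul_sum]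
      apply Finset.sum_congr rfl
      intro i _
      rw [Finset.sum_comm, Finset.mul_sum, Finset.mul_sum]
      apply Finset.sum_congr rfl
      intro j _
      by_cases hij : i = j
      · rw [Finset.sum_eq_zero (fun κ _ => if_neg (fun h => h.1 hij)), if_neg (fun h => h hij),
          mul_zero, mul_zero]
      · have h1 : ∀ κ : Fin a → Fin Q, (if i ≠ j ∧ P (y (i, κ i)) = P (y (j, κ j)) then
            ((s * (s + 1) * c i j : ℕ) : ℤ) - X else 0) =
            (fun k k' => (if P (y (i, k)) = P (y (j, k')) then (1 : ℤ) else 0) *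
              (((s * (s + 1) * c i j : ℕ) : ℤ) - X)) (κ i) (κ j) := by
          intro κ
          by_cases h2 : P (y (i, κ i)) = P (y (j, κ j))
          · simp only [ne_eq, hij, not_false_eq_true, h2, and_self, if_true, one_mul]
          · simp only [ne_eq, hij, not_false_eq_true, h2, and_false, if_false, zero_mul]
        rw [Finset.sum_congr rfl (fun κ _ => h1 κ), if_pos hij, MM]
        refine (sum_two hij (fun k k' => (if P (y (i, k)) = P (y (j, k')) then (1 : ℤ) else 0) *
              (((s * (s + 1) * c i j : ℕ) : ℤ) - X))).trans ?_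
        rw [Nat.cast_pow]
        congr 1
        rw [Finset.sum_mul]
        apply Finset.sum_congr rfl
        intro k _
        rw [Finset.sum_mul])
  exact ⟨κ, h⟩

end average

section count

variable {Q : ℕ} {y : Fin a × Fin Q → Fin a} {P : Fin a → Fin a}

/-- Number of pieces of the row `i` in the part `d`. -/
def nn (y : Fin a × Fin Q → Fin a) (P : Fin a → Fin a) (i d : Fin a) : ℤ :=
  ∑ k, if P (y (i, k)) = d then 1 else 0

lemma nn_nonneg (i d : Fin a) : 0 ≤ nn y P i d := by
  unfold nn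
  apply Finset.sum_nonneg
  intro k _
  split_ifs <;> norm_num

lemma nn_le (i d : Fin a) : nn y P i d ≤ Q := by
  unfold nn
  calc ∑ k : Fin Q, (if P (y (i, k)) = d then (1 : ℤ) else 0) ≤ ∑ _k : Fin Q, 1 := by
        apply Finset.sum_le_sum
        intro k _
        split_ifs <;> norm_num
    _ = Q := by simp

lemma nn_full {i d : Fin a} (h : nn y P i d = Q) (k : Fin Q) : P (y (i, k)) = d := by
  by_contra hk
  have h1 : nn y P i d < ∑ _k : Fin Q, (1 : ℤ) := by
    unfold nn
    apply Finset.sum_lt_sum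
    · intro k _
      split_ifs <;> norm_num
    · exact ⟨k, Finset.mem_univ _, by rw [if_neg hk]; norm_num⟩
  rw [h] at h1
  simp at h1

lemma sum_nn (i : Fin a) : ∑ d, nn y P i d = Q := by
  unfold nn
  rw [Finset.sum_comm]
  simp

lemma collapse {ι κ : Type*} [Fintype ι] [Fintype κ] (f : ι → Fin a) (g : κ → Fin a) :
    ∑ k, ∑ k', (if f k = g k' then (1 : ℤ) else 0) =
      ∑ d, (∑ k, if f k = d then (1 : ℤ) else 0) * (∑ k', if g k' = d then (1 : ℤ) else 0) := by
  have h1 : ∀ d, (∑ k, (if f k = d then (1 : ℤ) else 0)) *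
      (∑ k', (if g k' = d then (1 : ℤ) else 0)) =
      ∑ k, ∑ k', (if f k = d then (1 : ℤ) else 0) * (if g k' = d then (1 : ℤ) else 0) := by
    intro d
    rw [Finset.sum_mul_sum]
  symm
  rw [Finset.sum_congr rfl (fun d _ => h1 d), Finset.sum_comm]
  apply Finset.sum_congr rfl
  intro k _
  rw [Finset.sum_comm]
  apply Finset.sum_congr rfl
  intro k' _
  rw [Finset.sum_eq_single (f k)]
  · rw [if_pos rfl, one_mul]
    by_cases h : f k = g k'
    · rw [if_pos h, if_pos h.symm]
    · rw [if_neg h, if_neg (fun h2 => h h2.symm)]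
  · intro d _ hd
    rw [if_neg (fun h => hd h.symm), zero_mul]
  · intro h
    exact absurd (Finset.mem_univ _) h

lemma MM_eq (i j : Fin a) : MM y P i j = ∑ d, nn y P i d * nn y P j d :=
  collapse (fun k => P (y (i, k))) (fun k => P (y (j, k)))

/-- Size of a part. -/
def RR (P : Fin a → Fin a) (d : Fin a) : ℤ := ∑ m, if P m = d then 1 else 0

lemma sum_RR : ∑ d, RR P d = a := by
  unfold RR
  rw [Finset.sum_comm]
  simp

lemma RR_card (d : Fin a) : RR P d = ((univ.filter (fun m => P m = d)).card : ℤ) := by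
  unfold RR
  rw [Finset.card_filter]
  push_cast
  rfl

lemma sum_nn_row (hbal : ∀ m, (univ.filter (fun p => y p = m)).card = Q) (d : Fin a) :
    ∑ i, nn y P i d = Q * RR P d := by
  unfold nn RR
  rw [← Fintype.sum_prod_type' (fun i k => if P (y (i, k)) = d then (1 : ℤ) else 0)]
  have h1 : ∀ p : Fin a × Fin Q, (if P (y (p.1, p.2)) = d then (1 : ℤ) else 0) =
      ∑ m, if y p = m then (if P m = d then 1 else 0) else 0 := by
    intro p
    rw [Finset.sum_ite_eq]
    simp
  rw [Finset.sum_congr rfl (fun p _ => h1 p), Finset.sum_comm, Finset.mul_sum]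
  apply Finset.sum_congr rfl
  intro m _
  rw [← Finset.sum_filter, Finset.sum_const, hbal, nsmul_eq_mul]

/-- The defect. -/
def LL (y : Fin a × Fin Q → Fin a) (P : Fin a → Fin a) : ℤ :=
  ∑ i, ∑ d, nn y P i d * (Q - nn y P i d)

lemma LL_term (i d : Fin a) : 0 ≤ nn y P i d * (Q - nn y P i d) :=
  mul_nonneg (nn_nonneg i d) (by linarith [nn_le (y := y) (P := P) i d])

lemma LL_nonneg : 0 ≤ LL y P :=
  Finset.sum_nonneg (fun i _ => Finset.sum_nonneg (fun d _ => LL_term i d))

/-- If the defect vanishes, every row stays in one part. -/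
lemma LL_zero (h : LL y P = 0) (i : Fin a) (k k' : Fin Q) : P (y (i, k)) = P (y (i, k')) := by
  have h1 := (Finset.sum_eq_zero_iff_of_nonneg (fun i _ => Finset.sum_nonneg
    (fun d _ => LL_term (y := y) (P := P) i d))).1 h i (Finset.mem_univ _)
  have h2 := (Finset.sum_eq_zero_iff_of_nonneg (fun d _ => LL_term (y := y) (P := P) i d)).1 h1
    (P (y (i, k))) (Finset.mem_univ _)
  have h3 : 0 < nn y P i (P (y (i, k))) := by
    unfold nn
    apply Finset.sum_pos'
    · intro k _
      split_ifs <;> norm_num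
    · exact ⟨k, Finset.mem_univ _, by rw [if_pos rfl]; norm_num⟩
  rcases mul_eq_zero.1 h2 with h4 | h4
  · exact absurd h4 h3.ne'
  · exact (nn_full (by linarith) k').symm

/-- The count of pairs. -/
lemma pairs_count (hbal : ∀ m, (univ.filter (fun p => y p = m)).card = Q) :
    (∑ i, ∑ j, if i ≠ j then MM y P i j else 0) -
      (Q : ℤ) ^ 2 * (∑ m, ∑ m', if m ≠ m' ∧ P m = P m' then (1 : ℤ) else 0) = LL y P := by
  have h1 : (∑ i, ∑ j, if i ≠ j then MM y P i j else 0) =
      (∑ i, ∑ j, MM y P i j) - ∑ i, MM y P i i := by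
    rw [← Finset.sum_sub_distrib]
    apply Finset.sum_congr rfl
    intro i _
    rw [eq_sub_iff_add_eq, ← Finset.add_sum_erase univ _ (Finset.mem_univ i), if_neg (by simp),
      zero_add]
    rw [← Finset.add_sum_erase univ (fun j => MM y P i j) (Finset.mem_univ i), add_comm]
    congr 1
    apply Finset.sum_congr rfl
    intro j hj
    rw [if_pos (Finset.ne_of_mem_erase hj).symm]
  have h2 : (∑ m, ∑ m', if m ≠ m' ∧ P m = P m' then (1 : ℤ) else 0) =
      (∑ m, ∑ m', if P m = P m' then (1 : ℤ) else 0) - a := by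
    have : (a : ℤ) = ∑ _m : Fin a, 1 := by simp
    rw [this, ← Finset.sum_sub_distrib]
    apply Finset.sum_congr rfl
    intro m _
    rw [eq_sub_iff_add_eq, ← Finset.add_sum_erase univ _ (Finset.mem_univ m), if_neg (by simp),
      zero_add]
    rw [← Finset.add_sum_erase univ (fun m' => if P m = P m' then (1 : ℤ) else 0)
      (Finset.mem_univ m), if_pos rfl, add_comm]
    congr 1
    apply Finset.sum_congr rfl
    intro j hj
    by_cases h : P m = P j
    · rw [if_pos ⟨(Finset.ne_of_mem_erase hj).symm, h⟩, if_pos h]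
    · rw [if_neg (fun h' => h h'.2), if_neg h]
  have h3 : (∑ m, ∑ m', if P m = P m' then (1 : ℤ) else 0) = ∑ d, RR P d * RR P d := by
    exact collapse P P
  have h4 : (∑ i, ∑ j, MM y P i j) = (Q : ℤ) ^ 2 * ∑ d, RR P d * RR P d := by
    have h5 : ∀ i j, MM y P i j = ∑ d, nn y P i d * nn y P j d := fun i j => MM_eq i j
    simp only [h5]
    have h6 : ∑ i, ∑ j, ∑ d, nn y P i d * nn y P j d =
        ∑ d, (∑ i, nn y P i d) * (∑ j, nn y P j d) := by
      rw [Finset.sum_congr rfl (fun i _ => Finset.sum_comm), Finset.sum_comm]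
      apply Finset.sum_congr rfl
      intro d _
      rw [Finset.sum_mul_sum]
    rw [h6, Finset.mul_sum]
    apply Finset.sum_congr rfl
    intro d _
    rw [sum_nn_row hbal]
    ring
  have h7 : ∑ i, MM y P i i = (Q : ℤ) ^ 2 * a - LL y P := by
    unfold LL
    have h8 : ∀ i : Fin a, MM y P i i = (Q : ℤ) ^ 2 - ∑ d, nn y P i d * (Q - nn y P i d) := by
      intro i
      rw [MM_eq, eq_sub_iff_add_eq, ← Finset.sum_add_distrib]
      calc ∑ d, (nn y P i d * nn y P i d + nn y P i d * (Q - nn y P i d))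
          = ∑ d, (Q : ℤ) * nn y P i d := Finset.sum_congr rfl (fun d _ => by ring)
        _ = (Q : ℤ) ^ 2 := by rw [← Finset.mul_sum, sum_nn]; ring
    rw [Finset.sum_congr rfl (fun i _ => h8 i), Finset.sum_sub_distrib, Finset.sum_const,
      Finset.card_univ, Fintype.card_fin, nsmul_eq_mul]
    ring
  rw [h1, h2, h3, h4, h7]
  ring

/-- The error term. -/
def BB (y : Fin a × Fin Q → Fin a) (P : Fin a → Fin a) (i j : Fin a) : ℤ :=
  open Classical in if ∀ k k', P (y (i, k)) = P (y (j, k')) then 0 else MM y P i j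

lemma BB_le (i j : Fin a) : BB y P i j ≤
    ∑ d, (nn y P i d * (Q - nn y P i d) * nn y P j d +
      nn y P i d * (nn y P j d * (Q - nn y P j d))) := by
  have h0 : ∀ d, 0 ≤ nn y P i d * (Q - nn y P i d) * nn y P j d +
      nn y P i d * (nn y P j d * (Q - nn y P j d)) := fun d =>
    add_nonneg (mul_nonneg (LL_term i d) (nn_nonneg j d))
      (mul_nonneg (nn_nonneg i d) (LL_term j d))
  unfold BB
  split_ifs with h
  · exact Finset.sum_nonneg (fun d _ => h0 d)
  · rw [MM_eq]
    apply Finset.sum_le_sum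
    intro d _
    by_cases h1 : nn y P i d = Q ∧ nn y P j d = Q
    · exfalso
      apply h
      intro k k'
      rw [nn_full h1.1 k, nn_full h1.2 k']
    · have h2 := nn_nonneg (y := y) (P := P) i d
      have h3 := nn_nonneg (y := y) (P := P) j d
      have h4 := nn_le (y := y) (P := P) i d
      have h5 := nn_le (y := y) (P := P) j d
      have h6 : 1 ≤ ((Q : ℤ) - nn y P i d) + (Q - nn y P j d) := by
        by_contra h7
        apply h1
        constructor <;> linarith
      have h8 := mul_nonneg h2 h3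
      nlinarith [mul_le_mul_of_nonneg_left h6 h8]

lemma sum_BB_le {s : ℕ} (hP : P ∈ Adm a s)
    (hbal : ∀ m, (univ.filter (fun p => y p = m)).card = Q) :
    (∑ i, ∑ j, if i ≠ j then BB y P i j else 0) ≤ 2 * Q * s * LL y P := by
  have h0 : ∀ i j d, 0 ≤ nn y P i d * (Q - nn y P i d) * nn y P j d +
      nn y P i d * (nn y P j d * (Q - nn y P j d)) := fun i j d =>
    add_nonneg (mul_nonneg (LL_term i d) (nn_nonneg j d))
      (mul_nonneg (nn_nonneg i d) (LL_term j d))
  have h1 : (∑ i, ∑ j, if i ≠ j then BB y P i j else 0) ≤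
      ∑ i, ∑ j, ∑ d, (nn y P i d * (Q - nn y P i d) * nn y P j d +
      nn y P i d * (nn y P j d * (Q - nn y P j d))) := by
    apply Finset.sum_le_sum
    intro i _
    apply Finset.sum_le_sum
    intro j _
    split_ifs
    · exact BB_le i j
    · exact Finset.sum_nonneg (fun d _ => h0 i j d)
  have h2 : ∑ i, ∑ j, ∑ d, (nn y P i d * (Q - nn y P i d) * nn y P j d +
      nn y P i d * (nn y P j d * (Q - nn y P j d))) =
      ∑ d, 2 * ((∑ i, nn y P i d * (Q - nn y P i d)) * (∑ j, nn y P j d)) := by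
    rw [Finset.sum_congr rfl (fun i _ => Finset.sum_comm), Finset.sum_comm]
    apply Finset.sum_congr rfl
    intro d _
    have h3 : ∑ i, ∑ j, (nn y P i d * (Q - nn y P i d) * nn y P j d +
        nn y P i d * (nn y P j d * (Q - nn y P j d))) =
        (∑ i, nn y P i d * (Q - nn y P i d)) * (∑ j, nn y P j d) +
          (∑ i, nn y P i d) * (∑ j, nn y P j d * (Q - nn y P j d)) := by
      rw [Finset.sum_mul_sum, Finset.sum_mul_sum, ← Finset.sum_add_distrib]
      apply Finset.sum_congr rfl
      intro i _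
      rw [← Finset.sum_add_distrib]
    rw [h3]
    ring
  have h3 : ∀ d, 2 * ((∑ i, nn y P i d * (Q - nn y P i d)) * (∑ j, nn y P j d)) ≤
      2 * Q * s * ∑ i, nn y P i d * (Q - nn y P i d) := by
    intro d
    rw [sum_nn_row hbal]
    have h4 : RR P d ≤ s := by
      rw [RR_card]
      exact_mod_cast mem_Adm.1 hP d
    have h5 : 0 ≤ ∑ i, nn y P i d * (Q - nn y P i d) :=
      Finset.sum_nonneg (fun i _ => LL_term i d)
    have h6 : (0 : ℤ) ≤ Q := by positivity
    have h7 : (Q : ℤ) * RR P d ≤ Q * s := mul_le_mul_of_nonneg_left h4 h6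
    nlinarith [mul_le_mul_of_nonneg_left h7 h5]
  refine h1.trans ?_
  rw [h2]
  refine (Finset.sum_le_sum (fun d _ => h3 d)).trans (le_of_eq ?_)
  rw [← Finset.mul_sum, LL, Finset.sum_comm]

end count

end Vale.Agent.P181.SK
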